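import Mathlib

/-!
Random k-SAT with proper clauses: definitions used in the statements for P170.
-/

open Finset

namespace Vale.Agent.Lib.P170

/-- A proper `k`-clause on the variable set `V`: a set of `k` literals
(a literal is a pair (variable, sign)) on `k` distinct variables. -/
def ProperClause (V : Type) [DecidableEq V] (k : ℕ) : Type :=
  {C : Finset (V × Bool) // C.card = k ∧ ∀ l ∈ C, ∀ l' ∈ C, l.1 = l'.1 → l = l'}

noncomputable instance (V : Type) [DecidableEq V] [Fintype V] (k : ℕ) :
    Fintype (ProperClause V k) := by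
  unfold ProperClause; exact Fintype.ofFinite _

/-- The assignment `σ` satisfies the clause `C`: some literal `(v, b)` of `C` has `σ v = b`. -/
def ProperClause.SatBy {V : Type} [DecidableEq V] {k : ℕ} (C : ProperClause V k)
    (σ : V → Bool) : Prop :=
  ∃ l ∈ C.1, σ l.1 = l.2

/-- The formula `C_1 ∧ ... ∧ C_m` is satisfiable. -/
def FormulaSat {V : Type} [DecidableEq V] {k m : ℕ} (F : Fin m → ProperClause V k) : Prop :=
  ∃ σ : V → Bool, ∀ i, (F i).SatBy σ

open Classical in
/-- `P_{k,n}(m)`: the probability that `m` independent uniform proper `k`-clauses on `n`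
variables form a satisfiable formula. -/
noncomputable def satProb (k n m : ℕ) : ℝ :=
  (Fintype.card {F : Fin m → ProperClause (Fin n) k // FormulaSat F} : ℝ) /
    (Fintype.card (ProperClause (Fin n) k) : ℝ) ^ m

/-- `r` is a threshold sequence for random `k`-SAT in the sense of Friedgut's theorem:
for every `ε > 0`, `P_{k,n}(⌊(r n - ε) n⌋) → 1` and `P_{k,n}(⌊(r n + ε) n⌋) → 0`. -/
def IsThresholdSeq (k : ℕ) (r : ℕ → ℝ) : Prop :=
  ∀ ε : ℝ, 0 < ε →
    Filter.Tendsto (fun n : ℕ => satProb k n ⌊(r n - ε) * n⌋₊) Filter.atTop (nhds 1) ∧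
    Filter.Tendsto (fun n : ℕ => satProb k n ⌊(r n + ε) * n⌋₊) Filter.atTop (nhds 0)

end Vale.Agent.Lib.P170
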