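import Mathlib
import Vale.Agent.Lib.P170.Defs

/-!
Averaging operators on functions of solution sets.
-/

set_option linter.unusedSectionVars false

open Finset

namespace Vale.Agent.Lib.P170

section Ops

variable {A : Type} [DecidableEq A]

/-- Averaging operator of a clause system `sat : X → Finset A`. -/
noncomputable def avgOp {X : Type} [Fintype X] (sat : X → Finset A) :
    Module.End ℝ (Finset A → ℝ) where
  toFun Ψ S := (Fintype.card X : ℝ)⁻¹ * ∑ x, Ψ (S ∩ sat x)
  map_add' Ψ Ψ' := by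
    funext S
    simp [mul_add, Finset.sum_add_distrib]
  map_smul' a Ψ := by
    funext S
    simp only [Pi.smul_apply, smul_eq_mul, RingHom.id_apply, Finset.mul_sum]
    apply Finset.sum_congr rfl
    intro x _
    ring

lemma avgOp_apply {X : Type} [Fintype X] (sat : X → Finset A) (Ψ : Finset A → ℝ) (S : Finset A) :
    avgOp sat Ψ S = (Fintype.card X : ℝ)⁻¹ * ∑ x, Ψ (S ∩ sat x) := rfl

lemma avgOp_comm {X Y : Type} [Fintype X] [Fintype Y] (sat : X → Finset A) (sat' : Y → Finset A) :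
    Commute (avgOp sat) (avgOp sat') := by
  show avgOp sat * avgOp sat' = avgOp sat' * avgOp sat
  apply LinearMap.ext
  intro Ψ
  funext S
  simp only [Module.End.mul_apply, avgOp_apply]
  simp only [Finset.mul_sum]
  rw [Finset.sum_comm]
  apply Finset.sum_congr rfl
  intro y _
  apply Finset.sum_congr rfl
  intro x _
  have : S ∩ sat x ∩ sat' y = S ∩ sat' y ∩ sat x := by
    ext a; simp only [Finset.mem_inter]; tauto
  rw [this]
  ring

/-- `L` is positive and local: `L Ψ S` depends monotonically on the values of `Ψ` on subsets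
of `S`. -/
def IsLocPos (L : Module.End ℝ (Finset A → ℝ)) : Prop :=
  ∀ (Ψ Ψ' : Finset A → ℝ) (S : Finset A), (∀ S', S' ⊆ S → Ψ S' ≤ Ψ' S') → L Ψ S ≤ L Ψ' S

lemma avgOp_isLocPos {X : Type} [Fintype X] (sat : X → Finset A) : IsLocPos (avgOp sat) := by
  intro Ψ Ψ' S h
  simp only [avgOp_apply]
  apply mul_le_mul_of_nonneg_left _ (by positivity)
  apply Finset.sum_le_sum
  intro x _
  exact h _ Finset.inter_subset_left

lemma IsLocPos.mono {L : Module.End ℝ (Finset A → ℝ)} (hL : IsLocPos L)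
    {Ψ Ψ' : Finset A → ℝ} (h : ∀ S, Ψ S ≤ Ψ' S) (S : Finset A) : L Ψ S ≤ L Ψ' S :=
  hL Ψ Ψ' S (fun S' _ => h S')

lemma IsLocPos.one : IsLocPos (1 : Module.End ℝ (Finset A → ℝ)) := by
  intro Ψ Ψ' S h
  simpa using h S (Finset.Subset.refl S)

lemma IsLocPos.mul {L L' : Module.End ℝ (Finset A → ℝ)} (hL : IsLocPos L) (hL' : IsLocPos L') :
    IsLocPos (L * L') := by
  intro Ψ Ψ' S h
  simp only [Module.End.mul_apply]
  apply hL
  intro S' hS'
  apply hL'
  intro S'' hS''
  exact h _ (hS''.trans hS')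

lemma IsLocPos.pow {L : Module.End ℝ (Finset A → ℝ)} (hL : IsLocPos L) (m : ℕ) :
    IsLocPos (L ^ m) := by
  induction m with
  | zero => simpa using IsLocPos.one
  | succ m ih => rw [pow_succ]; exact ih.mul hL

lemma IsLocPos.add {L L' : Module.End ℝ (Finset A → ℝ)} (hL : IsLocPos L) (hL' : IsLocPos L') :
    IsLocPos (L + L') := by
  intro Ψ Ψ' S h
  simp only [LinearMap.add_apply, Pi.add_apply]
  exact add_le_add (hL _ _ _ h) (hL' _ _ _ h)

lemma IsLocPos.smul {L : Module.End ℝ (Finset A → ℝ)} (hL : IsLocPos L) {a : ℝ} (ha : 0 ≤ a) :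
    IsLocPos (a • L) := by
  intro Ψ Ψ' S h
  simp only [LinearMap.smul_apply, Pi.smul_apply, smul_eq_mul]
  exact mul_le_mul_of_nonneg_left (hL _ _ _ h) ha

/-- Indicator of nonemptiness. -/
noncomputable def phi (S : Finset A) : ℝ := if S.Nonempty then 1 else 0

lemma phi_nonneg (S : Finset A) : 0 ≤ phi S := by
  unfold phi; split_ifs <;> norm_num

lemma phi_le_one (S : Finset A) : phi S ≤ 1 := by
  unfold phi; split_ifs <;> norm_num

lemma phi_nonempty {S : Finset A} (h : S.Nonempty) : phi S = 1 := by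
  unfold phi; simp [h]

lemma phi_empty : phi (∅ : Finset A) = 0 := by
  unfold phi; simp

/-- Main comparison lemma for iterated operators. -/
theorem compare_iter {L_F L : Module.End ℝ (Finset A → ℝ)} (hcomm : Commute L_F L)
    (hF : IsLocPos L_F) (hL : IsLocPos L) {Φ : Finset A → ℝ} {a : ℝ} (ha : 0 ≤ a)
    (h : ∀ S, a * L Φ S ≤ L_F Φ S) (m : ℕ) (S : Finset A) :
    a ^ m * (L ^ m) Φ S ≤ (L_F ^ m) Φ S := by
  induction m generalizing S with
  | zero => simp
  | succ m ih =>
    -- L_F^(m+1) Φ = L_F^m (L_F Φ) ≥ L_F^m (a L Φ) = a L (L_F^m Φ) ≥ a L (a^m L^m Φ)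
    have h1 : (L_F ^ (m + 1)) Φ S = (L_F ^ m) (L_F Φ) S := by
      rw [pow_succ]; rfl
    have h2 : (L_F ^ m) (a • (L Φ)) S ≤ (L_F ^ m) (L_F Φ) S := by
      apply IsLocPos.mono (hF.pow m)
      intro S'
      simpa using h S'
    have hc : Commute (L_F ^ m) L := hcomm.pow_left m
    have h3 : (L_F ^ m) (a • (L Φ)) S = a * L ((L_F ^ m) Φ) S := by
      rw [map_smul]
      have : (L_F ^ m) (L Φ) = L ((L_F ^ m) Φ) := by
        have := congrArg (fun T : Module.End ℝ (Finset A → ℝ) => T Φ) hc.eq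
        simpa [Module.End.mul_apply] using this
      rw [this]
      simp
    have h4 : L ((a ^ m) • (L ^ m) Φ) S ≤ L ((L_F ^ m) Φ) S := by
      apply IsLocPos.mono hL
      intro S'
      simpa using ih S'
    have h5 : L ((a ^ m) • (L ^ m) Φ) S = a ^ m * (L ^ (m + 1)) Φ S := by
      rw [map_smul, pow_succ']
      simp [Module.End.mul_apply]
    calc a ^ (m + 1) * (L ^ (m + 1)) Φ S
        = a * (a ^ m * (L ^ (m + 1)) Φ S) := by ring
      _ = a * L ((a ^ m) • (L ^ m) Φ) S := by rw [h5]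
      _ ≤ a * L ((L_F ^ m) Φ) S := mul_le_mul_of_nonneg_left h4 ha
      _ = (L_F ^ m) (a • (L Φ)) S := h3.symm
      _ ≤ (L_F ^ m) (L_F Φ) S := h2
      _ = (L_F ^ (m + 1)) Φ S := h1.symm

/-- Explicit formula for the iterates of an averaging operator. -/
lemma avgOp_pow_apply {X : Type} [Fintype X] (sat : X → Finset A) (m : ℕ) (Ψ : Finset A → ℝ)
    (S : Finset A) :
    (avgOp sat ^ m) Ψ S =
      ((Fintype.card X : ℝ)⁻¹) ^ m *
        ∑ F : Fin m → X, Ψ (S.filter (fun σ => ∀ i, σ ∈ sat (F i))) := by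
  induction m generalizing S with
  | zero =>
    simp [Finset.filter_true_of_mem]
  | succ m ih =>
    rw [pow_succ']
    simp only [Module.End.mul_apply, avgOp_apply]
    simp only [ih]
    rw [Fintype.sum_equiv (Fin.consEquiv (fun _ => X)).symm
        (fun F : Fin (m+1) → X => Ψ (S.filter (fun σ => ∀ i, σ ∈ sat (F i))))
        (fun p : X × (Fin m → X) =>
          Ψ ((S ∩ sat p.1).filter (fun σ => ∀ i, σ ∈ sat (p.2 i))))]
    · rw [Fintype.sum_prod_type, pow_succ, Finset.mul_sum, Finset.mul_sum]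
      apply Finset.sum_congr rfl
      intro x _
      have hsum : (∑ y : Fin m → X, Ψ ((S ∩ sat (x, y).1).filter (fun σ => ∀ i, σ ∈ sat ((x, y).2 i))))
          = ∑ F : Fin m → X, Ψ ((S ∩ sat x).filter (fun σ => ∀ i, σ ∈ sat (F i))) := rfl
      rw [hsum]
      ring
    · intro F
      congr 1
      ext σ
      simp only [Finset.mem_filter, Finset.mem_inter]
      constructor
      · rintro ⟨hS, hi⟩
        refine ⟨⟨hS, ?_⟩, ?_⟩
        · simpa [Fin.consEquiv] using hi 0
        · intro i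
          exact hi i.succ
      · rintro ⟨⟨hS, h0⟩, hi⟩
        refine ⟨hS, ?_⟩
        intro i
        refine Fin.cases ?_ ?_ i
        · simpa [Fin.consEquiv] using h0
        · intro j
          exact hi j

end Ops

end Vale.Agent.Lib.P170
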