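import Mathlib
import Vale.Agent.Lib.P170.Ops

/-!
Counting proper clauses and clauses killed by a solution set.
-/

set_option linter.unusedSectionVars false

open Finset

namespace Vale.Agent.Lib.P170

section Clauses

variable {W V : Type} [Fintype W] [DecidableEq W] [Fintype V] [DecidableEq V] {k : ℕ}

open Classical in
/-- The set of assignments of `V` satisfying a clause on `W`, read through a map `e : W → V`. -/
noncomputable def satOf (e : W → V) (C : ProperClause W k) : Finset (V → Bool) :=
  univ.filter (fun σ => C.SatBy (σ ∘ e))

open Classical in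
/-- Literals on `W` that are false, through `e`, under all assignments in `S`. -/
noncomputable def frozen (e : W → V) (S : Finset (V → Bool)) : Finset (W × Bool) :=
  univ.filter (fun l => ∀ σ ∈ S, σ (e l.1) ≠ l.2)

lemma mem_frozen (e : W → V) (S : Finset (V → Bool)) (l : W × Bool) :
    l ∈ frozen e S ↔ ∀ σ ∈ S, σ (e l.1) ≠ l.2 := by
  classical
  simp [frozen]

lemma mem_satOf (e : W → V) (C : ProperClause W k) (σ : V → Bool) :
    σ ∈ satOf e C ↔ ∃ l ∈ C.1, σ (e l.1) = l.2 := by
  classical
  simp [satOf, ProperClause.SatBy]

lemma frozen_anti (e : W → V) {S S' : Finset (V → Bool)} (h : S' ⊆ S) :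
    frozen e S ⊆ frozen e S' := by
  intro l hl
  rw [mem_frozen] at hl ⊢
  intro σ hσ
  exact hl σ (h hσ)

lemma inter_eq_empty_iff (e : W → V) (S : Finset (V → Bool)) (C : ProperClause W k) :
    S ∩ satOf e C = ∅ ↔ C.1 ⊆ frozen e S := by
  constructor
  · intro h l hl
    rw [mem_frozen]
    intro σ hσ hσl
    have : σ ∈ S ∩ satOf e C := by
      rw [Finset.mem_inter]
      exact ⟨hσ, (mem_satOf e C σ).2 ⟨l, hl, hσl⟩⟩
    rw [h] at this
    simp at this
  · intro h
    apply Finset.eq_empty_of_forall_notMem
    intro σ hσ
    rw [Finset.mem_inter] at hσ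
    obtain ⟨hS, hs⟩ := hσ
    obtain ⟨l, hl, hσl⟩ := (mem_satOf e C σ).1 hs
    exact (mem_frozen e S l).1 (h hl) σ hS hσl

lemma frozen_proper (e : W → V) {S : Finset (V → Bool)} (hS : S.Nonempty)
    {l l' : W × Bool} (hl : l ∈ frozen e S) (hl' : l' ∈ frozen e S) (h : l.1 = l'.1) : l = l' := by
  obtain ⟨σ, hσ⟩ := hS
  have h1 := (mem_frozen e S l).1 hl σ hσ
  have h2 := (mem_frozen e S l').1 hl' σ hσ
  apply Prod.ext h
  rw [h] at h1
  cases hb : σ (e l'.1) <;> cases hc : l.2 <;> cases hd : l'.2 <;> simp_all

/-- The number of proper clauses inside a proper set of literals. -/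
lemma card_clauses_subset (F : Finset (W × Bool))
    (hF : ∀ l ∈ F, ∀ l' ∈ F, l.1 = l'.1 → l = l') :
    (univ.filter (fun C : ProperClause W k => C.1 ⊆ F)).card = F.card.choose k := by
  classical
  rw [← Finset.card_powersetCard]
  apply Finset.card_bij (fun C _ => C.1)
  · intro C hC
    simp only [mem_filter, mem_univ, true_and] at hC
    rw [Finset.mem_powersetCard]
    exact ⟨hC, C.2.1⟩
  · intro C _ D _ h
    exact Subtype.ext h
  · intro D hD
    rw [Finset.mem_powersetCard] at hD
    refine ⟨⟨D, hD.2, ?_⟩, ?_, rfl⟩
    · intro l hl l' hl' h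
      exact hF l (hD.1 hl) l' (hD.1 hl') h
    · exact Finset.mem_filter.2 ⟨Finset.mem_univ _, hD.1⟩

/-- Clauses killing the nonempty solution set `S`. -/
lemma card_kills (e : W → V) {S : Finset (V → Bool)} (hS : S.Nonempty) :
    (univ.filter (fun C : ProperClause W k => S ∩ satOf e C = ∅)).card =
      (frozen e S).card.choose k := by
  rw [← card_clauses_subset (frozen e S) (fun l hl l' hl' h => frozen_proper e hS hl hl' h)]
  congr 1
  ext C
  simp only [mem_filter, mem_univ, true_and]
  exact inter_eq_empty_iff e S C

/-- An equivalence between proper clauses and `k`-sets of variables with signs. -/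
noncomputable def clauseEquiv :
    ProperClause W k ≃ Σ s : {s : Finset W // s.card = k}, (s.1 → Bool) where
  toFun C :=
    ⟨⟨C.1.image Prod.fst, by
        rw [Finset.card_image_of_injOn, C.2.1]
        intro l hl l' hl' h
        exact C.2.2 l hl l' hl' h⟩,
      fun v => decide ((v.1, true) ∈ C.1)⟩
  invFun p :=
    ⟨p.1.1.attach.image (fun v => (v.1, p.2 v)), by
        rw [Finset.card_image_of_injective, Finset.card_attach, p.1.2]
        intro v v' h
        exact Subtype.ext (congrArg Prod.fst h), by
        intro l hl l' hl' h
        simp only [Finset.mem_image, Finset.mem_attach, true_and] at hl hl'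
        obtain ⟨v, rfl⟩ := hl
        obtain ⟨v', rfl⟩ := hl'
        have : v = v' := Subtype.ext h
        rw [this]⟩
  left_inv C := by
    apply Subtype.ext
    ext l
    obtain ⟨v, b⟩ := l
    simp only [Finset.mem_image, Finset.mem_attach, true_and, Subtype.exists, Prod.mk.injEq]
    constructor
    · rintro ⟨a, ha, rfl, hb⟩
      obtain ⟨l, hl, hla⟩ := ha
      obtain ⟨a', b'⟩ := l
      simp only at hla
      subst hla
      cases b with
      | true => simpa using hb
      | false =>
        have h1 : (a', true) ∉ C.1 := by simpa using hb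
        cases b' with
        | true => exact absurd hl h1
        | false => exact hl
    · intro hl
      refine ⟨v, ⟨(v, b), hl, rfl⟩, rfl, ?_⟩
      cases b with
      | true => simpa using hl
      | false =>
        simp only [decide_eq_false_iff_not]
        intro h2
        have := C.2.2 _ hl _ h2 rfl
        simp at this
  right_inv p := by
    obtain ⟨⟨s, hs⟩, b⟩ := p
    have h1 : (s.attach.image (fun v => (v.1, b v))).image Prod.fst = s := by
      ext v
      simp only [Finset.mem_image, Finset.mem_attach, true_and, Subtype.exists]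
      constructor
      · rintro ⟨l, ⟨a, ha, rfl⟩, rfl⟩
        exact ha
      · intro hv
        exact ⟨(v, b ⟨v, hv⟩), ⟨v, hv, rfl⟩, rfl⟩
    have key : ∀ v : s, decide ((v.1, true) ∈ s.attach.image (fun v => (v.1, b v))) = b v := by
      intro v
      by_cases hbv : b v = true
      · rw [hbv]
        simp only [decide_eq_true_eq, Finset.mem_image, Finset.mem_attach, true_and]
        exact ⟨v, by simp [hbv]⟩
      · have hbv' : b v = false := by simpa using hbv
        rw [hbv']
        simp only [decide_eq_false_iff_not, Finset.mem_image, Finset.mem_attach, true_and]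
        rintro ⟨w, hw⟩
        have hwv : w = v := Subtype.ext (congrArg Prod.fst hw)
        have := congrArg Prod.snd hw
        simp only at this
        rw [hwv, hbv'] at this
        exact absurd this (by simp)
    apply Sigma.ext
    · apply Subtype.ext
      exact h1
    · apply Function.hfunext
      · simp only [h1]
      · intro a a' haa
        have h2 : a.1 = a'.1 := by
          have h3 : ∀ (t t' : Finset W) (ht : t = t') (x : t) (y : t'), HEq x y → x.1 = y.1 := by
            intro t t' ht x y hxy
            subst ht
            rw [eq_of_heq hxy]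
          exact h3 _ _ h1 a a' haa
        have h4 : b a' = decide ((a'.1, true) ∈ s.attach.image (fun v => (v.1, b v))) :=
          (key a').symm
        simp only [heq_eq_eq]
        rw [h4, h2]

lemma card_properClause :
    Fintype.card (ProperClause W k) = 2 ^ k * (Fintype.card W).choose k := by
  rw [Fintype.card_congr clauseEquiv, Fintype.card_sigma]
  have h : ∀ s : {s : Finset W // s.card = k}, Fintype.card (s.1 → Bool) = 2 ^ k := by
    intro s
    rw [Fintype.card_fun, Fintype.card_bool, Fintype.card_coe, s.2]
  simp only [h]
  rw [Finset.sum_const, Finset.card_univ, Fintype.card_finset_len, smul_eq_mul, mul_comm]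

end Clauses

end Vale.Agent.Lib.P170
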