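import Mathlib
import Vale.Agent.Lib.P170.Clauses

/-!
The abstract comparison between two clause operators.
-/

set_option linter.unusedSectionVars false

open Finset

namespace Vale.Agent.Lib.P170

/-- Binomial weight. -/
noncomputable def binW (M : ℕ) (p : ℝ) (a : ℕ) : ℝ :=
  (M.choose a : ℝ) * p ^ a * (1 - p) ^ (M - a)

lemma binW_nonneg (M : ℕ) {p : ℝ} (h0 : 0 ≤ p) (h1 : p ≤ 1) (a : ℕ) : 0 ≤ binW M p a := by
  unfold binW
  have : 0 ≤ 1 - p := by linarith
  positivity

lemma binW_eq_eval (M a : ℕ) (p : ℝ) :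
    binW M p a = (bernsteinPolynomial ℝ M a).eval p := by
  simp [binW, bernsteinPolynomial]

lemma binW_sum (M : ℕ) (p : ℝ) : ∑ a ∈ range (M + 1), binW M p a = 1 := by
  have := congrArg (Polynomial.eval p) (bernsteinPolynomial.sum ℝ M)
  simpa [Polynomial.eval_finsetSum, binW_eq_eval] using this

lemma binW_mean (M : ℕ) (p : ℝ) : ∑ a ∈ range (M + 1), (a : ℝ) * binW M p a = M * p := by
  have := congrArg (Polynomial.eval p) (bernsteinPolynomial.sum_smul ℝ M)
  simpa [Polynomial.eval_finsetSum, binW_eq_eval] using this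

lemma binW_var (M : ℕ) (p : ℝ) :
    ∑ a ∈ range (M + 1), ((a : ℝ) - M * p) ^ 2 * binW M p a = M * p * (1 - p) := by
  have := congrArg (Polynomial.eval p) (bernsteinPolynomial.variance ℝ M)
  simp only [Polynomial.eval_finsetSum, Polynomial.eval_mul, Polynomial.eval_pow,
    Polynomial.eval_sub, Polynomial.eval_X, Polynomial.eval_natCast,
    Polynomial.eval_one, nsmul_eq_mul] at this
  rw [← this]
  apply Finset.sum_congr rfl
  intro a _
  rw [binW_eq_eval]
  ring

section Abstract

variable {A : Type} [DecidableEq A]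

/-- The abstract comparison theorem. -/
theorem finite_compare {L_F L : Module.End ℝ (Finset A → ℝ)} (hcomm : Commute L_F L)
    (hF : IsLocPos L_F) (hL : IsLocPos L) {κ_F κ : Finset A → ℝ}
    (h1 : ∀ S, S.Nonempty → L_F phi S = 1 - κ_F S) (h1e : L_F phi ∅ = 0)
    (h2 : ∀ S, S.Nonempty → L phi S = 1 - κ S) (h2e : L phi ∅ = 0)
    (hmono : ∀ S S', S' ⊆ S → S'.Nonempty → κ S ≤ κ S')
    (hκ0 : ∀ S, S.Nonempty → 0 ≤ κ S) (hκ : ∀ S, S.Nonempty → κ S ≤ 1 / 4)
    {η R γ : ℝ} (hη0 : 0 ≤ η) (hη1 : η ≤ 1) (hγ0 : 0 ≤ γ) (hγ1 : γ ≤ 1)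
    (hR : R - 1 ≤ 3 / 4 * γ)
    (hcmp : ∀ S, S.Nonempty → κ_F S ≤ η ∨ κ_F S ≤ R * κ S)
    (m e₀ : ℕ) (S : Finset A) :
    (1 - η) ^ m * (1 - m * γ / (e₀ + 1)) * (L ^ (m + e₀)) phi S ≤ (L_F ^ m) phi S := by
  -- basic facts
  have hLphi_le : ∀ S, L phi S ≤ phi S := by
    intro S
    by_cases hS : S.Nonempty
    · rw [h2 S hS, phi_nonempty hS]
      linarith [hκ0 S hS]
    · rw [Finset.not_nonempty_iff_eq_empty] at hS
      subst hS
      rw [h2e, phi_empty]
  have hphi0 : ∀ S : Finset A, (0 : Finset A → ℝ) S ≤ phi S := fun S => phi_nonneg S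
  -- `g` nonneg and antitone
  have hg0 : ∀ (M : ℕ) (S : Finset A), 0 ≤ (L ^ M) phi S := by
    intro M S
    have := IsLocPos.mono (hL.pow M) hphi0 S
    simpa using this
  have hg1 : ∀ (M : ℕ) (S : Finset A), (L ^ (M + 1)) phi S ≤ (L ^ M) phi S := by
    intro M S
    rw [pow_succ]
    exact IsLocPos.mono (hL.pow M) hLphi_le S
  have hganti : ∀ (S : Finset A) (M M' : ℕ), M ≤ M' → (L ^ M') phi S ≤ (L ^ M) phi S := by
    intro S M M' h
    induction h with
    | refl => exact le_refl _
    | step _ ih => exact (hg1 _ S).trans ih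
  -- the tilted operator
  set L1 : Module.End ℝ (Finset A → ℝ) := (1 - γ) • (1 : Module.End ℝ (Finset A → ℝ)) + γ • L with hL1
  have hL1pos : IsLocPos L1 :=
    (IsLocPos.one.smul (by linarith)).add (hL.smul hγ0)
  have hLt : IsLocPos (L * L1) := hL.mul hL1pos
  have hcommL1 : Commute L L1 := by
    apply Commute.add_right
    · exact (Commute.one_right L).smul_right _
    · exact (Commute.refl L).smul_right _
  have hcommF : Commute L_F (L * L1) := by
    apply Commute.mul_right hcomm
    apply Commute.add_right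
    · exact (Commute.one_right L_F).smul_right _
    · exact hcomm.smul_right _
  -- one-step inequality
  have hstep : ∀ S, (1 - η) * (L * L1) phi S ≤ L_F phi S := by
    intro S
    have hexp : (L * L1) phi S = (1 - γ) * L phi S + γ * L (L phi) S := by
      simp [hL1, Module.End.mul_apply, map_add, map_smul]
    by_cases hS : S.Nonempty
    · have hLL : L (L phi) S ≤ (1 - κ S) * (1 - κ S) := by
        have hloc : ∀ S', S' ⊆ S → L phi S' ≤ ((1 - κ S) • phi) S' := by
          intro S' hS'
          by_cases hS'' : S'.Nonempty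
          · rw [h2 S' hS'']
            simp only [Pi.smul_apply, smul_eq_mul, phi_nonempty hS'', mul_one]
            linarith [hmono S S' hS' hS'']
          · rw [Finset.not_nonempty_iff_eq_empty] at hS''
            subst hS''
            rw [h2e]
            simp [phi_empty]
        have := hL _ _ S hloc
        rw [map_smul] at this
        simp only [Pi.smul_apply, smul_eq_mul] at this
        rw [h2 S hS] at this
        exact this
      rw [hexp, h2 S hS, h1 S hS]
      have hk0 := hκ0 S hS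
      have hk1 := hκ S hS
      have hX : (1 - γ) * (1 - κ S) + γ * L (L phi) S ≤ (1 - κ S) * (1 - γ * κ S) := by
        have : γ * L (L phi) S ≤ γ * ((1 - κ S) * (1 - κ S)) :=
          mul_le_mul_of_nonneg_left hLL hγ0
        nlinarith
      have hX0 : 0 ≤ (1 - κ S) * (1 - γ * κ S) := by
        have h3 : γ * κ S ≤ 1 := by nlinarith
        apply mul_nonneg <;> linarith
      have hX1 : (1 - κ S) * (1 - γ * κ S) ≤ 1 := by
        have h3 : 0 ≤ γ * κ S := mul_nonneg hγ0 hk0
        have h4 : 1 - γ * κ S ≤ 1 := by linarith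
        have h5 : 0 ≤ 1 - κ S := by linarith
        have h6 : 1 - κ S ≤ 1 := by linarith
        nlinarith
      have hη' : 0 ≤ 1 - η := by linarith
      calc (1 - η) * ((1 - γ) * (1 - κ S) + γ * L (L phi) S)
          ≤ (1 - η) * ((1 - κ S) * (1 - γ * κ S)) := mul_le_mul_of_nonneg_left hX hη'
        _ ≤ 1 - κ_F S := by
          rcases hcmp S hS with hc | hc
          · have : (1 - η) * ((1 - κ S) * (1 - γ * κ S)) ≤ (1 - η) * 1 :=
              mul_le_mul_of_nonneg_left hX1 hη'
            linarith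
          · have hc2 : (1 - κ S) * (1 - γ * κ S) ≤ 1 - R * κ S := by
              have h3 : (R - 1) * κ S ≤ 3 / 4 * γ * κ S := mul_le_mul_of_nonneg_right hR hk0
              have h4 : γ * κ S * κ S ≤ 1 / 4 * (γ * κ S) := by
                have h5 : 0 ≤ γ * κ S := mul_nonneg hγ0 hk0
                have h6 := mul_le_mul_of_nonneg_left hk1 h5
                linarith
              nlinarith
            have : (1 - η) * ((1 - κ S) * (1 - γ * κ S)) ≤ 1 * ((1 - κ S) * (1 - γ * κ S)) :=
              mul_le_mul_of_nonneg_right (by linarith) hX0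
            linarith
    · rw [Finset.not_nonempty_iff_eq_empty] at hS
      subst hS
      rw [h1e, hexp, h2e]
      have hLL : L (L phi) ∅ ≤ L 0 ∅ := by
        apply hL
        intro S' hS'
        have : S' = ∅ := Finset.subset_empty.1 hS'
        subst this
        rw [h2e]
        simp
      simp only [map_zero, Pi.zero_apply] at hLL
      have h3 : γ * L (L phi) ∅ ≤ γ * 0 := mul_le_mul_of_nonneg_left hLL hγ0
      have hη' : 0 ≤ 1 - η := by linarith
      have : (1 - η) * ((1 - γ) * 0 + γ * L (L phi) ∅) ≤ (1 - η) * 0 := by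
        apply mul_le_mul_of_nonneg_left _ hη'
        linarith
      simpa using this
  have hiter := compare_iter hcommF hF hLt (a := 1 - η) (by linarith) hstep m S
  -- expansion of the tilted power
  have hpow : (L * L1) ^ m = L ^ m * L1 ^ m := hcommL1.mul_pow m
  have hL1pow : L1 ^ m = ∑ e ∈ range (m + 1), ((γ • L) ^ e * ((1 - γ) • (1 : Module.End ℝ (Finset A → ℝ))) ^ (m - e)) * (m.choose e : Module.End ℝ (Finset A → ℝ)) := by
    rw [hL1, add_comm]
    apply Commute.add_pow
    exact ((Commute.one_right L).smul_right _).smul_left _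
  have hexpand : ((L * L1) ^ m) phi S =
      ∑ e ∈ range (m + 1), binW m γ e * (L ^ (m + e)) phi S := by
    rw [hpow, hL1pow, Finset.mul_sum, LinearMap.sum_apply, Finset.sum_apply]
    apply Finset.sum_congr rfl
    intro e _
    have h3 : L ^ m * ((γ • L) ^ e * ((1 - γ) • (1 : Module.End ℝ (Finset A → ℝ))) ^ (m - e) *
        (m.choose e : Module.End ℝ (Finset A → ℝ))) =
        (binW m γ e) • (L ^ (m + e)) := by
      have hcast : (m.choose e : Module.End ℝ (Finset A → ℝ)) =
          ((m.choose e : ℝ) • (1 : Module.End ℝ (Finset A → ℝ))) := by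
        simp [Nat.cast_smul_eq_nsmul]
      rw [smul_pow, smul_pow, one_pow, hcast, binW]
      simp only [smul_mul_assoc, mul_smul_comm, mul_one, smul_smul, pow_add]
      congr 1
      ring
    rw [h3]
    simp
  -- Markov
  have hmarkov : (1 - m * γ / (e₀ + 1)) * (L ^ (m + e₀)) phi S ≤
      ∑ e ∈ range (m + 1), binW m γ e * (L ^ (m + e)) phi S := by
    have hpt : ∀ e ∈ range (m + 1),
        binW m γ e * ((1 - (e : ℝ) / (e₀ + 1)) * (L ^ (m + e₀)) phi S) ≤
          binW m γ e * (L ^ (m + e)) phi S := by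
      intro e _
      apply mul_le_mul_of_nonneg_left _ (binW_nonneg m hγ0 hγ1 e)
      have hg := hg0 (m + e₀) S
      have hden : (0 : ℝ) < (e₀ : ℝ) + 1 := by positivity
      by_cases hee : e ≤ e₀
      · have h4 : (L ^ (m + e₀)) phi S ≤ (L ^ (m + e)) phi S :=
          hganti S _ _ (by omega)
        have h5 : 1 - (e : ℝ) / (e₀ + 1) ≤ 1 := by
          have : 0 ≤ (e : ℝ) / (e₀ + 1) := by positivity
          linarith
        calc (1 - (e : ℝ) / (e₀ + 1)) * (L ^ (m + e₀)) phi S
            ≤ 1 * (L ^ (m + e₀)) phi S := mul_le_mul_of_nonneg_right h5 hg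
          _ ≤ (L ^ (m + e)) phi S := by simpa using h4
      · have h6 : (e₀ : ℝ) + 1 ≤ e := by
          have : e₀ + 1 ≤ e := by omega
          exact_mod_cast this
        have h7 : 1 ≤ (e : ℝ) / (e₀ + 1) := by
          rw [le_div_iff₀ hden]; linarith
        have h8 : (1 - (e : ℝ) / (e₀ + 1)) * (L ^ (m + e₀)) phi S ≤ 0 :=
          mul_nonpos_of_nonpos_of_nonneg (by linarith) hg
        exact h8.trans (hg0 _ S)
    have hsumL := Finset.sum_le_sum hpt
    have hid : ∑ e ∈ range (m + 1), binW m γ e * ((1 - (e : ℝ) / (e₀ + 1)) * (L ^ (m + e₀)) phi S) =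
        (1 - m * γ / (e₀ + 1)) * (L ^ (m + e₀)) phi S := by
      have h9 : ∀ e ∈ range (m + 1), binW m γ e * ((1 - (e : ℝ) / (e₀ + 1)) * (L ^ (m + e₀)) phi S) =
          (binW m γ e - (e : ℝ) * binW m γ e / (e₀ + 1)) * (L ^ (m + e₀)) phi S := by
        intro e _
        field_simp
      rw [Finset.sum_congr rfl h9, ← Finset.sum_mul, Finset.sum_sub_distrib, ← Finset.sum_div,
        binW_sum, binW_mean]
    rw [hid] at hsumL
    exact hsumL
  have hη' : 0 ≤ (1 - η) ^ m := pow_nonneg (by linarith) m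
  calc (1 - η) ^ m * (1 - m * γ / (e₀ + 1)) * (L ^ (m + e₀)) phi S
      = (1 - η) ^ m * ((1 - m * γ / (e₀ + 1)) * (L ^ (m + e₀)) phi S) := by ring
    _ ≤ (1 - η) ^ m * ((L * L1) ^ m) phi S := by
        rw [hexpand]
        exact mul_le_mul_of_nonneg_left hmarkov hη'
    _ ≤ (L_F ^ m) phi S := hiter

end Abstract

end Vale.Agent.Lib.P170
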