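import Mathlib
import Vale.Agent.Lib.P170.Compare

/-!
The concrete clause operators.
-/

set_option linter.unusedSectionVars false

open Finset

namespace Vale.Agent.Lib.P170

/-- Kill probability of a uniform proper `k`-clause on `nW` variables when `f` literals
are frozen. -/
noncomputable def kappa (k nW f : ℕ) : ℝ := (f.choose k : ℝ) / (2 ^ k * (nW.choose k : ℝ))

section Concrete

variable {W V : Type} [Fintype W] [DecidableEq W] [Fintype V] [DecidableEq V] {k : ℕ}

lemma card_clause_pos (hk : k ≤ Fintype.card W) : (0 : ℝ) < Fintype.card (ProperClause W k) := by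
  rw [card_properClause]
  have : 0 < (Fintype.card W).choose k := Nat.choose_pos hk
  positivity

lemma avg_phi_empty (e : W → V) : avgOp (satOf (k := k) e) phi (∅ : Finset (V → Bool)) = 0 := by
  rw [avgOp_apply]
  simp [phi_empty]

lemma sum_phi_inter (e : W → V) (S : Finset (V → Bool)) :
    (∑ C : ProperClause W k, phi (S ∩ satOf e C)) =
      (Fintype.card (ProperClause W k) : ℝ) -
        ((univ.filter (fun C : ProperClause W k => S ∩ satOf e C = ∅)).card : ℝ) := by
  have h1 : ∀ C : ProperClause W k, phi (S ∩ satOf e C) =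
      1 - (if S ∩ satOf e C = ∅ then (1 : ℝ) else 0) := by
    intro C
    unfold phi
    by_cases h : S ∩ satOf e C = ∅
    · simp [h]
    · have : (S ∩ satOf e C).Nonempty := Finset.nonempty_iff_ne_empty.2 h
      simp [h, this]
  simp only [h1]
  rw [Finset.sum_sub_distrib, Finset.sum_const, Finset.card_univ, nsmul_eq_mul, mul_one,
    Finset.sum_boole]

lemma avg_phi_nonempty (e : W → V) (hk : k ≤ Fintype.card W) {S : Finset (V → Bool)}
    (hS : S.Nonempty) :
    avgOp (satOf (k := k) e) phi S = 1 - kappa k (Fintype.card W) (frozen e S).card := by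
  rw [avgOp_apply, sum_phi_inter, card_kills e hS]
  have hC : ((Fintype.card W).choose k : ℝ) ≠ 0 := by
    exact_mod_cast (Nat.choose_pos hk).ne'
  have h2 : (2 : ℝ) ^ k ≠ 0 := by positivity
  unfold kappa
  rw [card_properClause]
  push_cast
  field_simp

lemma kappa_mono (k nW : ℕ) {f f' : ℕ} (h : f ≤ f') : kappa k nW f ≤ kappa k nW f' := by
  unfold kappa
  apply div_le_div_of_nonneg_right _ (by positivity)
  exact_mod_cast Nat.choose_le_choose k h

lemma kappa_nonneg (k nW f : ℕ) : 0 ≤ kappa k nW f := by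
  unfold kappa; positivity

lemma card_frozen_le (e : W → V) {S : Finset (V → Bool)} (hS : S.Nonempty) :
    (frozen e S).card ≤ Fintype.card W := by
  classical
  rw [← Finset.card_univ]
  apply Finset.card_le_card_of_injOn Prod.fst
  · intro l _
    exact Finset.mem_coe.2 (Finset.mem_univ _)
  · intro l hl l' hl' h
    exact frozen_proper e hS hl hl' h

lemma kappa_le_of_le (hk2 : 2 ≤ k) {nW f : ℕ} (hk : k ≤ nW) (hf : f ≤ nW) :
    kappa k nW f ≤ 1 / 4 := by
  unfold kappa
  have hc : (0 : ℝ) < (nW.choose k : ℝ) := by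
    exact_mod_cast Nat.choose_pos hk
  have hle : (f.choose k : ℝ) ≤ (nW.choose k : ℝ) := by
    exact_mod_cast Nat.choose_le_choose k hf
  have h4 : (4 : ℝ) ≤ 2 ^ k := by
    calc (4 : ℝ) = 2 ^ 2 := by norm_num
      _ ≤ 2 ^ k := pow_le_pow_right₀ (by norm_num) hk2
  rw [div_le_iff₀ (by positivity)]
  nlinarith

open Classical in
/-- The count formula for iterates at `univ`. -/
lemma avg_pow_univ {n : ℕ} (e : Fin n → V) (m : ℕ) :
    (avgOp (satOf (k := k) e) ^ m) phi univ =
      ((Fintype.card (ProperClause (Fin n) k) : ℝ)⁻¹) ^ m *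
        ((Fintype.card {F : Fin m → ProperClause (Fin n) k //
            ∃ σ : V → Bool, ∀ i, (F i).SatBy (σ ∘ e)} : ℕ) : ℝ) := by
  rw [avgOp_pow_apply]
  congr 1
  rw [Fintype.card_subtype]
  rw [Finset.natCast_card_filter]
  apply Finset.sum_congr rfl
  intro F _
  unfold phi
  have : (univ.filter (fun σ => ∀ i, σ ∈ satOf e (F i))).Nonempty ↔
      ∃ σ : V → Bool, ∀ i, (F i).SatBy (σ ∘ e) := by
    constructor
    · rintro ⟨σ, hσ⟩
      refine ⟨σ, ?_⟩
      intro i
      have := (Finset.mem_filter.1 hσ).2 i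
      obtain ⟨l, hl, hσl⟩ := (mem_satOf e (F i) σ).1 this
      exact ⟨l, hl, hσl⟩
    · rintro ⟨σ, hσ⟩
      refine ⟨σ, Finset.mem_filter.2 ⟨Finset.mem_univ _, ?_⟩⟩
      intro i
      obtain ⟨l, hl, hσl⟩ := hσ i
      exact (mem_satOf e (F i) σ).2 ⟨l, hl, hσl⟩
  simp only [this]

open Classical in
lemma satProb_eq_card (k n m : ℕ) : satProb k n m =
    ((Fintype.card (ProperClause (Fin n) k) : ℝ)⁻¹) ^ m *
      ((Fintype.card {F : Fin m → ProperClause (Fin n) k // FormulaSat F} : ℕ) : ℝ) := by
  unfold satProb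
  rw [div_eq_mul_inv, mul_comm, inv_pow]

lemma avg_pow_le {n : ℕ} (e : Fin n → V) (m : ℕ) :
    (avgOp (satOf (k := k) e) ^ m) phi univ ≤ satProb k n m := by
  classical
  rw [avg_pow_univ, satProb_eq_card]
  apply mul_le_mul_of_nonneg_left _ (by positivity)
  norm_cast
  apply Fintype.card_subtype_mono
  rintro F ⟨σ, hσ⟩
  exact ⟨σ ∘ e, hσ⟩

lemma avg_pow_eq {n : ℕ} (e : Fin n → V) (he : Function.Injective e) (m : ℕ) :
    (avgOp (satOf (k := k) e) ^ m) phi univ = satProb k n m := by
  classical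
  rw [avg_pow_univ, satProb_eq_card]
  congr 2
  apply Fintype.card_congr
  apply Equiv.subtypeEquivRight
  intro F
  constructor
  · rintro ⟨σ, hσ⟩
    exact ⟨σ ∘ e, hσ⟩
  · rintro ⟨τ, hτ⟩
    refine ⟨Function.extend e τ (fun _ => false), ?_⟩
    intro i
    have : (Function.extend e τ (fun _ => false)) ∘ e = τ := by
      funext x
      exact he.extend_apply _ _ _
    rw [this]
    exact hτ i

lemma satProb_nonneg (k n m : ℕ) : 0 ≤ satProb k n m := by
  classical
  unfold satProb
  positivity

/-- Monotonicity of the satisfiability probability in the number of clauses (for `k ≤ n`). -/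
lemma satProb_anti {k n : ℕ} (hk : k ≤ n) {m m' : ℕ} (h : m ≤ m') :
    satProb k n m' ≤ satProb k n m := by
  have hk' : k ≤ Fintype.card (Fin n) := by simpa using hk
  have hle : ∀ S : Finset (Fin n → Bool), avgOp (satOf (k := k) (id : Fin n → Fin n)) phi S ≤ phi S := by
    intro S
    by_cases hS : S.Nonempty
    · rw [avg_phi_nonempty _ hk' hS, phi_nonempty hS]
      linarith [kappa_nonneg k (Fintype.card (Fin n)) (frozen id S).card]
    · rw [Finset.not_nonempty_iff_eq_empty] at hS
      subst hS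
      rw [avg_phi_empty, phi_empty]
  have hstep : ∀ j, satProb k n (j + 1) ≤ satProb k n j := by
    intro j
    rw [← avg_pow_eq (k := k) (id : Fin n → Fin n) Function.injective_id,
      ← avg_pow_eq (k := k) (id : Fin n → Fin n) Function.injective_id, pow_succ]
    exact IsLocPos.mono ((avgOp_isLocPos _).pow j) hle univ
  induction h with
  | refl => exact le_refl _
  | step _ ih => exact (hstep _).trans ih

/-- `satProb` is at most one when `k ≤ n`. -/
lemma satProb_le_one {k n : ℕ} (hk : k ≤ n) (m : ℕ) : satProb k n m ≤ 1 := by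
  have h0 : satProb k n 0 ≤ 1 := by
    rw [← avg_pow_eq (k := k) (id : Fin n → Fin n) Function.injective_id]
    simp only [pow_zero, Module.End.one_apply]
    exact phi_le_one _
  exact (satProb_anti hk (Nat.zero_le m)).trans h0

/-- Product form for two disjoint variable sets. -/
lemma avg_two_parts (n₁ n₂ a b : ℕ) :
    (avgOp (satOf (k := k) (Sum.inl : Fin n₁ → Fin n₁ ⊕ Fin n₂)) ^ a)
      ((avgOp (satOf (k := k) (Sum.inr : Fin n₂ → Fin n₁ ⊕ Fin n₂)) ^ b) phi) univ =
    satProb k n₁ a * satProb k n₂ b := by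
  classical
  rw [avgOp_pow_apply]
  simp only [avgOp_pow_apply]
  rw [satProb_eq_card, satProb_eq_card]
  rw [Fintype.card_subtype, Fintype.card_subtype, Finset.natCast_card_filter,
    Finset.natCast_card_filter]
  rw [← Finset.mul_sum]
  have key : ∀ (F₁ : Fin a → ProperClause (Fin n₁) k) (F₂ : Fin b → ProperClause (Fin n₂) k),
      phi (((univ : Finset (Fin n₁ ⊕ Fin n₂ → Bool)).filter
          (fun σ => ∀ i, σ ∈ satOf Sum.inl (F₁ i))).filter
            (fun σ => ∀ i, σ ∈ satOf Sum.inr (F₂ i))) =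
        (if FormulaSat F₁ then (1 : ℝ) else 0) * (if FormulaSat F₂ then (1 : ℝ) else 0) := by
    intro F₁ F₂
    unfold phi
    by_cases h1 : FormulaSat F₁
    · by_cases h2 : FormulaSat F₂
      · obtain ⟨σ₁, hσ₁⟩ := h1
        obtain ⟨σ₂, hσ₂⟩ := h2
        have hne : (((univ : Finset (Fin n₁ ⊕ Fin n₂ → Bool)).filter
          (fun σ => ∀ i, σ ∈ satOf Sum.inl (F₁ i))).filter
            (fun σ => ∀ i, σ ∈ satOf Sum.inr (F₂ i))).Nonempty := by
          refine ⟨Sum.elim σ₁ σ₂, ?_⟩
          simp only [Finset.mem_filter, Finset.mem_univ, true_and]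
          constructor
          · intro i
            obtain ⟨l, hl, hσl⟩ := hσ₁ i
            exact (mem_satOf _ _ _).2 ⟨l, hl, by simpa using hσl⟩
          · intro i
            obtain ⟨l, hl, hσl⟩ := hσ₂ i
            exact (mem_satOf _ _ _).2 ⟨l, hl, by simpa using hσl⟩
        have h1' : FormulaSat F₁ := ⟨σ₁, hσ₁⟩
        have h2' : FormulaSat F₂ := ⟨σ₂, hσ₂⟩
        simp [hne, h1', h2']
      · have hne : ¬ (((univ : Finset (Fin n₁ ⊕ Fin n₂ → Bool)).filter
          (fun σ => ∀ i, σ ∈ satOf Sum.inl (F₁ i))).filter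
            (fun σ => ∀ i, σ ∈ satOf Sum.inr (F₂ i))).Nonempty := by
          rintro ⟨σ, hσ⟩
          apply h2
          simp only [Finset.mem_filter, Finset.mem_univ, true_and] at hσ
          refine ⟨σ ∘ Sum.inr, ?_⟩
          intro i
          obtain ⟨l, hl, hσl⟩ := (mem_satOf _ _ _).1 (hσ.2 i)
          exact ⟨l, hl, hσl⟩
        simp [hne, h2]
    · have hne : ¬ (((univ : Finset (Fin n₁ ⊕ Fin n₂ → Bool)).filter
          (fun σ => ∀ i, σ ∈ satOf Sum.inl (F₁ i))).filter
            (fun σ => ∀ i, σ ∈ satOf Sum.inr (F₂ i))).Nonempty := by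
        rintro ⟨σ, hσ⟩
        apply h1
        simp only [Finset.mem_filter, Finset.mem_univ, true_and] at hσ
        refine ⟨σ ∘ Sum.inl, ?_⟩
        intro i
        obtain ⟨l, hl, hσl⟩ := (mem_satOf _ _ _).1 (hσ.1 i)
        exact ⟨l, hl, hσl⟩
      simp [hne, h1]
  simp only [key]
  simp only [← Finset.mul_sum, ← Finset.sum_mul]
  ring

end Concrete

end Vale.Agent.Lib.P170
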