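import Mathlib
import Vale.Agent.Lib.P170.Concrete

/-!
Numerical comparison of the kill probabilities.
-/

set_option linter.unusedSectionVars false

open Finset

namespace Vale.Agent.Lib.P170

lemma descFactorial_mul_pow_le {f n : ℕ} (hf : f ≤ n) (k : ℕ) :
    f.descFactorial k * n ^ k ≤ f ^ k * n.descFactorial k := by
  induction k with
  | zero => simp
  | succ k ih =>
    rw [Nat.descFactorial_succ, Nat.descFactorial_succ, pow_succ, pow_succ]
    have h1 : (f - k) * n ≤ f * (n - k) := by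
      by_cases hfk : k ≤ f
      · have hkn : k ≤ n := hfk.trans hf
        obtain ⟨a, rfl⟩ := Nat.exists_eq_add_of_le hfk
        obtain ⟨b, rfl⟩ := Nat.exists_eq_add_of_le hkn
        simp only [Nat.add_sub_cancel_left]
        have : a ≤ b := by omega
        nlinarith
      · have : f - k = 0 := by omega
        simp [this]
    calc (f - k) * f.descFactorial k * (n ^ k * n)
        = (f.descFactorial k * n ^ k) * ((f - k) * n) := by ring
      _ ≤ (f ^ k * n.descFactorial k) * (f * (n - k)) := Nat.mul_le_mul ih h1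
      _ = f ^ k * f * ((n - k) * n.descFactorial k) := by ring

/-- `C(f,k)/C(n,k) ≤ (f/n)^k`. -/
lemma choose_ratio_le {f n k : ℕ} (hf : f ≤ n) (hkn : k ≤ n) (hn : 0 < n) :
    (f.choose k : ℝ) / (n.choose k : ℝ) ≤ ((f : ℝ) / n) ^ k := by
  have hc : (0 : ℝ) < (n.choose k : ℝ) := by exact_mod_cast Nat.choose_pos hkn
  have hn' : (0 : ℝ) < n := by exact_mod_cast hn
  rw [div_pow, div_le_div_iff₀ hc (by positivity)]
  have h1 := descFactorial_mul_pow_le hf k
  rw [Nat.descFactorial_eq_factorial_mul_choose, Nat.descFactorial_eq_factorial_mul_choose] at h1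
  have h2 : (f.choose k) * n ^ k ≤ f ^ k * n.choose k := by
    have hfac : 0 < k.factorial := Nat.factorial_pos k
    have : k.factorial * (f.choose k * n ^ k) ≤ k.factorial * (f ^ k * n.choose k) := by
      calc k.factorial * (f.choose k * n ^ k) = k.factorial * f.choose k * n ^ k := by ring
        _ ≤ f ^ k * (k.factorial * n.choose k) := h1
        _ = k.factorial * (f ^ k * n.choose k) := by ring
    exact Nat.le_of_mul_le_mul_left this hfac
  exact_mod_cast h2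

/-- `((f+1-k)/n)^k ≤ C(f,k)/C(n,k)`. -/
lemma le_choose_ratio {f n k : ℕ} (hkn : k ≤ n) (hn : 0 < n) :
    (((f + 1 - k : ℕ) : ℝ) / n) ^ k ≤ (f.choose k : ℝ) / (n.choose k : ℝ) := by
  have hc : (0 : ℝ) < (n.choose k : ℝ) := by exact_mod_cast Nat.choose_pos hkn
  have hn' : (0 : ℝ) < n := by exact_mod_cast hn
  rw [div_pow, div_le_div_iff₀ (by positivity) hc]
  have h1 : (f + 1 - k) ^ k ≤ f.descFactorial k := Nat.pow_sub_le_descFactorial f k
  have h2 : n.descFactorial k ≤ n ^ k := Nat.descFactorial_le_pow n k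
  rw [Nat.descFactorial_eq_factorial_mul_choose] at h1 h2
  have hfac : 0 < k.factorial := Nat.factorial_pos k
  have h3 : (f + 1 - k) ^ k * n.choose k ≤ f.choose k * n ^ k := by
    have : k.factorial * ((f + 1 - k) ^ k * n.choose k) ≤ k.factorial * (f.choose k * n ^ k) := by
      calc k.factorial * ((f + 1 - k) ^ k * n.choose k)
          = (f + 1 - k) ^ k * (k.factorial * n.choose k) := by ring
        _ ≤ (k.factorial * f.choose k) * (n ^ k) := Nat.mul_le_mul h1 h2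
        _ = k.factorial * (f.choose k * n ^ k) := by ring
    exact Nat.le_of_mul_le_mul_left this hfac
  exact_mod_cast h3

lemma kappa_le_pow {k n f : ℕ} (hf : f ≤ n) (hkn : k ≤ n) (hn : 0 < n) :
    kappa k n f ≤ ((f : ℝ) / n) ^ k / 2 ^ k := by
  unfold kappa
  rw [div_mul_eq_div_div_swap, div_le_div_iff_of_pos_right (by positivity)]
  exact choose_ratio_le hf hkn hn

lemma pow_le_kappa {k n f : ℕ} (hkn : k ≤ n) (hn : 0 < n) :
    (((f + 1 - k : ℕ) : ℝ) / n) ^ k / 2 ^ k ≤ kappa k n f := by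
  unfold kappa
  rw [div_mul_eq_div_div_swap, div_le_div_iff_of_pos_right (by positivity)]
  exact le_choose_ratio hkn hn

/-- Comparison of the kill probability of a clause on all variables with that of a clause in one
of two parts. -/
lemma kappa_compare_parts {k n₁ n₂ f₁ f₂ f₀ : ℕ} (hk2 : 2 ≤ k) (hn₁ : 0 < n₁) (hn₂ : 0 < n₂)
    (hk₁ : k ≤ n₁) (hk₂ : k ≤ n₂) (hf₁ : f₁ ≤ n₁) (hf₂ : f₂ ≤ n₂)
    (hf₀ : 2 * k ≤ f₀) :
    kappa k (n₁ + n₂) (f₁ + f₂) ≤ ((f₀ : ℝ) / (n₁ + n₂ : ℕ)) ^ k / 2 ^ k ∨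
    kappa k (n₁ + n₂) (f₁ + f₂) ≤
      (((f₀ : ℝ) / (f₀ - (2 * k - 2))) ^ k) *
        (((n₁ : ℝ) / (n₁ + n₂ : ℕ)) * kappa k n₁ f₁ + ((n₂ : ℝ) / (n₁ + n₂ : ℕ)) * kappa k n₂ f₂) := by
  set n := n₁ + n₂ with hn
  have hnpos : 0 < n := by omega
  have hnR : (0 : ℝ) < n := by exact_mod_cast hnpos
  have hn₁R : (0 : ℝ) < n₁ := by exact_mod_cast hn₁
  have hn₂R : (0 : ℝ) < n₂ := by exact_mod_cast hn₂
  have hfn : f₁ + f₂ ≤ n := by omega
  have hkn : k ≤ n := by omega
  have hF := kappa_le_pow hfn hkn hnpos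
  by_cases hcase : f₁ + f₂ < f₀
  · left
    refine hF.trans ?_
    apply div_le_div_of_nonneg_right _ (by positivity)
    apply pow_le_pow_left₀ (by positivity)
    apply div_le_div_of_nonneg_right _ hnR.le
    exact_mod_cast hcase.le
  · right
    push Not at hcase
    have hk0 : (0 : ℝ) ≤ k := by positivity
    set g₁ := f₁ + 1 - k with hg₁
    set g₂ := f₂ + 1 - k with hg₂
    set x : ℝ := ((f₁ + f₂ : ℕ) : ℝ) with hx
    set d : ℝ := 2 * k - 2 with hd
    have hfR : (f₀ : ℝ) ≤ x := by rw [hx]; exact_mod_cast hcase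
    have hf₀R : (2 * k : ℝ) ≤ f₀ := by exact_mod_cast hf₀
    have hdlt : d < f₀ := by rw [hd]; linarith
    have hd0x : 0 ≤ x - d := by linarith
    have hgsum : x - d ≤ (g₁ : ℝ) + g₂ := by
      have h1 : (f₁ : ℝ) + 1 - k ≤ g₁ := by
        rw [hg₁]
        by_cases hh : k ≤ f₁ + 1
        · rw [Nat.cast_sub hh]; push_cast; linarith
        · have : f₁ + 1 < k := by omega
          have h2 : (f₁ + 1 : ℝ) < k := by exact_mod_cast this
          have : (0 : ℝ) ≤ (g₁ : ℝ) := by positivity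
          linarith
      have h2 : (f₂ : ℝ) + 1 - k ≤ g₂ := by
        rw [hg₂]
        by_cases hh : k ≤ f₂ + 1
        · rw [Nat.cast_sub hh]; push_cast; linarith
        · have : f₂ + 1 < k := by omega
          have h2 : (f₂ + 1 : ℝ) < k := by exact_mod_cast this
          have : (0 : ℝ) ≤ (g₂ : ℝ) := by positivity
          linarith
      rw [hx, hd]
      push_cast
      linarith
    -- lower bound on the part kill probabilities
    have hD₁ := pow_le_kappa (f := f₁) hk₁ hn₁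
    have hD₂ := pow_le_kappa (f := f₂) hk₂ hn₂
    set α : ℝ := (n₁ : ℝ) / n with hα
    set β : ℝ := (n₂ : ℝ) / n with hβ
    have hα0 : 0 ≤ α := by positivity
    have hβ0 : 0 ≤ β := by positivity
    have hαβ : α + β = 1 := by
      rw [hα, hβ, ← add_div, hn]
      push_cast
      field_simp
    have hconv : (α * ((g₁ : ℝ) / n₁) + β * ((g₂ : ℝ) / n₂)) ^ k ≤
        α * ((g₁ : ℝ) / n₁) ^ k + β * ((g₂ : ℝ) / n₂) ^ k := by
      have := (convexOn_pow k).2 (x := (g₁ : ℝ) / n₁) (y := (g₂ : ℝ) / n₂)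
        (Set.mem_Ici.2 (by positivity)) (Set.mem_Ici.2 (by positivity)) hα0 hβ0 hαβ
      simpa [smul_eq_mul] using this
    have hmean : α * ((g₁ : ℝ) / n₁) + β * ((g₂ : ℝ) / n₂) = ((g₁ : ℝ) + g₂) / n := by
      rw [hα, hβ]
      field_simp
    rw [hmean] at hconv
    have hDlow : (((x - d) / n) ^ k) / 2 ^ k ≤
        α * kappa k n₁ f₁ + β * kappa k n₂ f₂ := by
      have h1 : ((x - d) / n) ^ k ≤ (((g₁ : ℝ) + g₂) / n) ^ k := by
        apply pow_le_pow_left₀ (by positivity)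
        apply div_le_div_of_nonneg_right hgsum hnR.le
      have h2 : α * (((g₁ : ℝ) / n₁) ^ k / 2 ^ k) ≤ α * kappa k n₁ f₁ :=
        mul_le_mul_of_nonneg_left hD₁ hα0
      have h3 : β * (((g₂ : ℝ) / n₂) ^ k / 2 ^ k) ≤ β * kappa k n₂ f₂ :=
        mul_le_mul_of_nonneg_left hD₂ hβ0
      have h4 : ((x - d) / n) ^ k / 2 ^ k ≤
          (α * ((g₁ : ℝ) / n₁) ^ k + β * ((g₂ : ℝ) / n₂) ^ k) / 2 ^ k :=
        div_le_div_of_nonneg_right (h1.trans hconv) (by positivity)
      have h5 : (α * ((g₁ : ℝ) / n₁) ^ k + β * ((g₂ : ℝ) / n₂) ^ k) / 2 ^ k =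
          α * (((g₁ : ℝ) / n₁) ^ k / 2 ^ k) + β * (((g₂ : ℝ) / n₂) ^ k / 2 ^ k) := by ring
      linarith
    -- upper bound
    have hratio : x / n ≤ ((f₀ : ℝ) / (f₀ - d)) * ((x - d) / n) := by
      have hpos : (0 : ℝ) < f₀ - d := by linarith
      have hf₀pos : (0 : ℝ) ≤ f₀ := by positivity
      rw [div_mul_div_comm, div_le_div_iff₀ hnR (by positivity)]
      have hd0 : 0 ≤ d := by
        have : (2 : ℝ) ≤ k := by exact_mod_cast hk2
        rw [hd]; linarith
      have key : x * (f₀ - d) ≤ f₀ * (x - d) := by nlinarith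
      nlinarith
    have hpow : (x / n) ^ k ≤ ((f₀ : ℝ) / (f₀ - d)) ^ k * ((x - d) / n) ^ k := by
      rw [← mul_pow]
      apply pow_le_pow_left₀ (by positivity) hratio
    have hF' : kappa k n (f₁ + f₂) ≤ (x / n) ^ k / 2 ^ k := hF
    have hR0 : 0 ≤ ((f₀ : ℝ) / (f₀ - d)) ^ k := by
      have hpos : (0 : ℝ) < f₀ - d := by linarith
      positivity
    calc kappa k n (f₁ + f₂) ≤ (x / n) ^ k / 2 ^ k := hF'
      _ ≤ (((f₀ : ℝ) / (f₀ - d)) ^ k * ((x - d) / n) ^ k) / 2 ^ k :=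
          div_le_div_of_nonneg_right hpow (by positivity)
      _ = ((f₀ : ℝ) / (f₀ - d)) ^ k * (((x - d) / n) ^ k / 2 ^ k) := by ring
      _ ≤ ((f₀ : ℝ) / (f₀ - d)) ^ k * (α * kappa k n₁ f₁ + β * kappa k n₂ f₂) :=
          mul_le_mul_of_nonneg_left hDlow hR0

/-- Comparison for adding `L` variables: `f' ≤ f + L`. -/
lemma kappa_compare_extra {k n L f f' f₀ : ℕ} (hk1 : 1 ≤ k) (hn : 0 < n) (hk : k ≤ n) (hf' : f' ≤ n + L)
    (hff : f' ≤ f + L) (hf₀ : k ≤ f₀) :
    kappa k (n + L) f' ≤ (((f₀ : ℝ) + L) / n) ^ k / 2 ^ k ∨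
    kappa k (n + L) f' ≤ (((f₀ : ℝ) + L) / ((f₀ : ℝ) + 1 - k)) ^ k * kappa k n f := by
  have hnR : (0 : ℝ) < n := by exact_mod_cast hn
  have hnL : (0 : ℝ) < ((n + L : ℕ) : ℝ) := by
    have : 0 < n + L := by omega
    exact_mod_cast this
  have hnn : (n : ℝ) ≤ ((n + L : ℕ) : ℝ) := by
    push_cast
    have : (0 : ℝ) ≤ L := by positivity
    linarith
  have hF := kappa_le_pow hf' (by omega : k ≤ n + L) (by omega : 0 < n + L)
  have hF2 : ((f' : ℝ) / ((n + L : ℕ) : ℝ)) ≤ ((f : ℝ) + L) / n := by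
    have h1 : (f' : ℝ) ≤ (f : ℝ) + L := by exact_mod_cast hff
    calc (f' : ℝ) / ((n + L : ℕ) : ℝ) ≤ (f' : ℝ) / n :=
          div_le_div_of_nonneg_left (by positivity) hnR hnn
      _ ≤ ((f : ℝ) + L) / n := div_le_div_of_nonneg_right h1 hnR.le
  have hF3 : kappa k (n + L) f' ≤ (((f : ℝ) + L) / n) ^ k / 2 ^ k := by
    refine hF.trans ?_
    apply div_le_div_of_nonneg_right _ (by positivity)
    apply pow_le_pow_left₀ (by positivity) hF2
  by_cases hcase : f < f₀
  · left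
    refine hF3.trans ?_
    apply div_le_div_of_nonneg_right _ (by positivity)
    apply pow_le_pow_left₀ (by positivity)
    apply div_le_div_of_nonneg_right _ hnR.le
    have : (f : ℝ) ≤ f₀ := by exact_mod_cast hcase.le
    linarith
  · right
    push Not at hcase
    have hU := pow_le_kappa (f := f) hk hn
    have hfk : k ≤ f + 1 := by omega
    have hg : ((f + 1 - k : ℕ) : ℝ) = (f : ℝ) + 1 - k := by
      rw [Nat.cast_sub hfk]; push_cast; ring
    rw [hg] at hU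
    have hf₀R : (k : ℝ) ≤ f₀ := by exact_mod_cast hf₀
    have hfR : (f₀ : ℝ) ≤ f := by exact_mod_cast hcase
    have hden : (0 : ℝ) < (f₀ : ℝ) + 1 - k := by linarith
    have hden2 : (0 : ℝ) < (f : ℝ) + 1 - k := by linarith
    have hL0 : (0 : ℝ) ≤ L := by positivity
    have hratio : ((f : ℝ) + L) / n ≤ (((f₀ : ℝ) + L) / ((f₀ : ℝ) + 1 - k)) * (((f : ℝ) + 1 - k) / n) := by
      rw [div_mul_div_comm, div_le_div_iff₀ hnR (by positivity)]
      have hk1R : (1 : ℝ) ≤ k := by exact_mod_cast hk1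
      have key : ((f : ℝ) + L) * ((f₀ : ℝ) + 1 - k) ≤ ((f₀ : ℝ) + L) * ((f : ℝ) + 1 - k) := by
        have h0 : (0 : ℝ) ≤ (L : ℝ) + k - 1 := by linarith
        nlinarith [mul_nonneg (sub_nonneg.2 hfR) h0]
      nlinarith
    have hpow : (((f : ℝ) + L) / n) ^ k ≤
        (((f₀ : ℝ) + L) / ((f₀ : ℝ) + 1 - k)) ^ k * (((f : ℝ) + 1 - k) / n) ^ k := by
      rw [← mul_pow]
      apply pow_le_pow_left₀ (by positivity) hratio
    have hR0 : 0 ≤ (((f₀ : ℝ) + L) / ((f₀ : ℝ) + 1 - k)) ^ k := by positivity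
    calc kappa k (n + L) f' ≤ (((f : ℝ) + L) / n) ^ k / 2 ^ k := hF3
      _ ≤ ((((f₀ : ℝ) + L) / ((f₀ : ℝ) + 1 - k)) ^ k * (((f : ℝ) + 1 - k) / n) ^ k) / 2 ^ k :=
          div_le_div_of_nonneg_right hpow (by positivity)
      _ = (((f₀ : ℝ) + L) / ((f₀ : ℝ) + 1 - k)) ^ k * ((((f : ℝ) + 1 - k) / n) ^ k / 2 ^ k) := by ring
      _ ≤ (((f₀ : ℝ) + L) / ((f₀ : ℝ) + 1 - k)) ^ k * kappa k n f :=
          mul_le_mul_of_nonneg_left hU hR0

end Vale.Agent.Lib.P170
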