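import Mathlib
import Vale.Agent.Lib.P170.Numeric

/-!
The finite supermultiplicativity inequality.
-/

set_option linter.unusedSectionVars false

open Finset

namespace Vale.Agent.Lib.P170

section Split

variable {n₁ n₂ k : ℕ}

/-- The identification of variables of `Fin (n₁ + n₂)` with the disjoint union. -/
def splitMap (n₁ n₂ : ℕ) : Fin (n₁ + n₂) → Fin n₁ ⊕ Fin n₂ := finSumFinEquiv.symm

lemma splitMap_injective (n₁ n₂ : ℕ) : Function.Injective (splitMap n₁ n₂) :=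
  finSumFinEquiv.symm.injective

open Classical in
lemma card_frozen_split (S : Finset (Fin n₁ ⊕ Fin n₂ → Bool)) :
    (frozen (splitMap n₁ n₂) S).card =
      (frozen (Sum.inl : Fin n₁ → Fin n₁ ⊕ Fin n₂) S).card +
        (frozen (Sum.inr : Fin n₂ → Fin n₁ ⊕ Fin n₂) S).card := by
  have h1 : (frozen (splitMap n₁ n₂) S).card =
      ∑ w : Fin (n₁ + n₂), ∑ b : Bool, if (∀ σ ∈ S, σ (splitMap n₁ n₂ w) ≠ b) then 1 else 0 := by
    unfold frozen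
    rw [Finset.card_filter, Fintype.sum_prod_type]
  have h2 : (frozen (Sum.inl : Fin n₁ → Fin n₁ ⊕ Fin n₂) S).card =
      ∑ w : Fin n₁, ∑ b : Bool, if (∀ σ ∈ S, σ (Sum.inl w) ≠ b) then 1 else 0 := by
    unfold frozen
    rw [Finset.card_filter, Fintype.sum_prod_type]
  have h3 : (frozen (Sum.inr : Fin n₂ → Fin n₁ ⊕ Fin n₂) S).card =
      ∑ w : Fin n₂, ∑ b : Bool, if (∀ σ ∈ S, σ (Sum.inr w) ≠ b) then 1 else 0 := by
    unfold frozen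
    rw [Finset.card_filter, Fintype.sum_prod_type]
  rw [h1, h2, h3]
  rw [Fintype.sum_equiv (finSumFinEquiv.symm : Fin (n₁ + n₂) ≃ Fin n₁ ⊕ Fin n₂)
    (fun w => ∑ b : Bool, if (∀ σ ∈ S, σ (splitMap n₁ n₂ w) ≠ b) then 1 else 0)
    (fun v => ∑ b : Bool, if (∀ σ ∈ S, σ v ≠ b) then 1 else 0) (fun _ => rfl)]
  rw [Fintype.sum_sum_type]

/-- The operator of a `D`-type clause. -/
noncomputable def dOp (n₁ n₂ k : ℕ) : Module.End ℝ (Finset (Fin n₁ ⊕ Fin n₂ → Bool) → ℝ) :=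
  ((n₁ : ℝ) / (n₁ + n₂ : ℕ)) • avgOp (satOf (k := k) (Sum.inl : Fin n₁ → Fin n₁ ⊕ Fin n₂)) +
  ((n₂ : ℝ) / (n₁ + n₂ : ℕ)) • avgOp (satOf (k := k) (Sum.inr : Fin n₂ → Fin n₁ ⊕ Fin n₂))

lemma dOp_pow_univ (hn₁ : 0 < n₁) (M : ℕ) :
    ((dOp n₁ n₂ k) ^ M) phi univ =
      ∑ a ∈ range (M + 1), binW M ((n₁ : ℝ) / (n₁ + n₂ : ℕ)) a *
        (satProb k n₁ a * satProb k n₂ (M - a)) := by
  set α : ℝ := (n₁ : ℝ) / (n₁ + n₂ : ℕ) with hα
  have hβ : (n₂ : ℝ) / (n₁ + n₂ : ℕ) = 1 - α := by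
    rw [hα]
    have : ((n₁ + n₂ : ℕ) : ℝ) ≠ 0 := by
      have : 0 < n₁ + n₂ := by omega
      exact_mod_cast this.ne'
    field_simp
    push_cast
    ring
  set T₁ := avgOp (satOf (k := k) (Sum.inl : Fin n₁ → Fin n₁ ⊕ Fin n₂)) with hT₁
  set T₂ := avgOp (satOf (k := k) (Sum.inr : Fin n₂ → Fin n₁ ⊕ Fin n₂)) with hT₂
  have hc : Commute (α • T₁) ((1 - α) • T₂) :=
    ((avgOp_comm _ _).smul_right _).smul_left _
  have hd : dOp n₁ n₂ k = α • T₁ + (1 - α) • T₂ := by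
    unfold dOp
    rw [hβ]
  rw [hd, hc.add_pow, LinearMap.sum_apply, Finset.sum_apply]
  apply Finset.sum_congr rfl
  intro a _
  have h3 : (α • T₁) ^ a * ((1 - α) • T₂) ^ (M - a) * (M.choose a : Module.End ℝ _) =
      (binW M α a) • (T₁ ^ a * T₂ ^ (M - a)) := by
    have hcast : (M.choose a : Module.End ℝ (Finset (Fin n₁ ⊕ Fin n₂ → Bool) → ℝ)) =
        ((M.choose a : ℝ) • (1 : Module.End ℝ _)) := by
      simp [Nat.cast_smul_eq_nsmul]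
    rw [smul_pow, smul_pow, hcast, binW]
    simp only [smul_mul_assoc, mul_smul_comm, mul_one, smul_smul]
    congr 1
    ring
  rw [h3]
  simp only [LinearMap.smul_apply, Pi.smul_apply, smul_eq_mul, Module.End.mul_apply]
  rw [hT₁, hT₂, avg_two_parts]

lemma dOp_isLocPos (_hn₁ : 0 ≤ n₁) : IsLocPos (dOp n₁ n₂ k) := by
  unfold dOp
  apply IsLocPos.add
  · exact (avgOp_isLocPos _).smul (by positivity)
  · exact (avgOp_isLocPos _).smul (by positivity)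

/-- Lower bound of the `D`-type probability by a Chebyshev estimate. -/
lemma dOp_lower (hk₁ : k ≤ n₁) (hk₂ : k ≤ n₂) (hn₁ : 0 < n₁) (hn₂ : 0 < n₂) (M a₀ b₀ : ℕ)
    {x y : ℝ} (hx : x = a₀ - M * ((n₁ : ℝ) / (n₁ + n₂ : ℕ)))
    (hy : y = b₀ - M * ((n₂ : ℝ) / (n₁ + n₂ : ℕ))) (hx0 : 0 < x) (hy0 : 0 < y) :
    (1 - M * ((n₁ : ℝ) / (n₁ + n₂ : ℕ)) * ((n₂ : ℝ) / (n₁ + n₂ : ℕ)) / x ^ 2
      - M * ((n₁ : ℝ) / (n₁ + n₂ : ℕ)) * ((n₂ : ℝ) / (n₁ + n₂ : ℕ)) / y ^ 2) *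
      (satProb k n₁ a₀ * satProb k n₂ b₀) ≤ ((dOp n₁ n₂ k) ^ M) phi univ := by
  rw [dOp_pow_univ hn₁]
  set α : ℝ := (n₁ : ℝ) / (n₁ + n₂ : ℕ) with hα
  have hβ : (n₂ : ℝ) / (n₁ + n₂ : ℕ) = 1 - α := by
    rw [hα]
    have : ((n₁ + n₂ : ℕ) : ℝ) ≠ 0 := by
      have : 0 < n₁ + n₂ := by omega
      exact_mod_cast this.ne'
    field_simp
    push_cast
    ring
  rw [hβ] at hy ⊢
  have hα0 : 0 ≤ α := by positivity
  have hα1 : α ≤ 1 := by
    have : 0 ≤ (n₂ : ℝ) / (n₁ + n₂ : ℕ) := by positivity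
    linarith
  set Q : ℝ := satProb k n₁ a₀ * satProb k n₂ b₀ with hQ
  have hQ0 : 0 ≤ Q := mul_nonneg (satProb_nonneg _ _ _) (satProb_nonneg _ _ _)
  have hpt : ∀ a ∈ range (M + 1),
      binW M α a * ((1 - ((a : ℝ) - M * α) ^ 2 / x ^ 2 - ((a : ℝ) - M * α) ^ 2 / y ^ 2) * Q) ≤
        binW M α a * (satProb k n₁ a * satProb k n₂ (M - a)) := by
    intro a ha
    have haM : a ≤ M := by
      have := Finset.mem_range.1 ha
      omega
    apply mul_le_mul_of_nonneg_left _ (binW_nonneg M hα0 hα1 a)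
    have hP0 : 0 ≤ satProb k n₁ a * satProb k n₂ (M - a) :=
      mul_nonneg (satProb_nonneg _ _ _) (satProb_nonneg _ _ _)
    have hsq1 : 0 ≤ ((a : ℝ) - M * α) ^ 2 / x ^ 2 := by positivity
    have hsq2 : 0 ≤ ((a : ℝ) - M * α) ^ 2 / y ^ 2 := by positivity
    by_cases h1 : a ≤ a₀
    · by_cases h2 : M - a ≤ b₀
      · have h3 : satProb k n₁ a₀ ≤ satProb k n₁ a := satProb_anti hk₁ h1
        have h4 : satProb k n₂ b₀ ≤ satProb k n₂ (M - a) := satProb_anti hk₂ h2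
        have h5 : Q ≤ satProb k n₁ a * satProb k n₂ (M - a) :=
          mul_le_mul h3 h4 (satProb_nonneg _ _ _) (satProb_nonneg _ _ _)
        calc (1 - ((a : ℝ) - M * α) ^ 2 / x ^ 2 - ((a : ℝ) - M * α) ^ 2 / y ^ 2) * Q
            ≤ 1 * Q := mul_le_mul_of_nonneg_right (by linarith) hQ0
          _ ≤ _ := by simpa using h5
      · -- `M - a > b₀`
        have h3 : b₀ + 1 ≤ M - a := by omega
        have h4 : ((b₀ : ℝ) + 1) ≤ (M : ℝ) - a := by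
          have : ((b₀ + 1 : ℕ) : ℝ) ≤ ((M - a : ℕ) : ℝ) := by exact_mod_cast h3
          rw [Nat.cast_sub haM] at this
          push_cast at this
          linarith
        have h5 : y ≤ M * α - a := by
          rw [hy]; linarith
        have h6 : 1 ≤ ((a : ℝ) - M * α) ^ 2 / y ^ 2 := by
          rw [le_div_iff₀ (by positivity)]
          nlinarith
        have h7 : (1 - ((a : ℝ) - M * α) ^ 2 / x ^ 2 - ((a : ℝ) - M * α) ^ 2 / y ^ 2) * Q ≤ 0 :=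
          mul_nonpos_of_nonpos_of_nonneg (by linarith) hQ0
        exact h7.trans hP0
    · -- `a > a₀`
      have h3 : a₀ + 1 ≤ a := by omega
      have h4 : ((a₀ : ℝ) + 1) ≤ a := by exact_mod_cast h3
      have h5 : x ≤ a - M * α := by
        rw [hx]; linarith
      have h6 : 1 ≤ ((a : ℝ) - M * α) ^ 2 / x ^ 2 := by
        rw [le_div_iff₀ (by positivity)]
        nlinarith
      have h7 : (1 - ((a : ℝ) - M * α) ^ 2 / x ^ 2 - ((a : ℝ) - M * α) ^ 2 / y ^ 2) * Q ≤ 0 :=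
        mul_nonpos_of_nonpos_of_nonneg (by linarith) hQ0
      exact h7.trans hP0
  have hsumL := Finset.sum_le_sum hpt
  have hid : ∑ a ∈ range (M + 1),
      binW M α a * ((1 - ((a : ℝ) - M * α) ^ 2 / x ^ 2 - ((a : ℝ) - M * α) ^ 2 / y ^ 2) * Q) =
      (1 - M * α * (1 - α) / x ^ 2 - M * α * (1 - α) / y ^ 2) * Q := by
    have h9 : ∀ a ∈ range (M + 1),
        binW M α a * ((1 - ((a : ℝ) - M * α) ^ 2 / x ^ 2 - ((a : ℝ) - M * α) ^ 2 / y ^ 2) * Q) =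
        (binW M α a - (((a : ℝ) - M * α) ^ 2 * binW M α a) / x ^ 2
            - (((a : ℝ) - M * α) ^ 2 * binW M α a) / y ^ 2) * Q := by
      intro a _
      field_simp
    rw [Finset.sum_congr rfl h9, ← Finset.sum_mul, Finset.sum_sub_distrib, Finset.sum_sub_distrib,
      ← Finset.sum_div, ← Finset.sum_div, binW_sum, binW_var]
  rw [hid] at hsumL
  exact hsumL

/-- The finite comparison between `F`-type and `D`-type formulas. -/
theorem finite_super (hk2 : 2 ≤ k) (hk₁ : k ≤ n₁) (hk₂ : k ≤ n₂) {f₀ : ℕ} (hf₀ : 2 * k ≤ f₀)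
    {γ : ℝ} (hγ0 : 0 ≤ γ) (hγ1 : γ ≤ 1)
    (hR : ((f₀ : ℝ) / (f₀ - (2 * k - 2))) ^ k - 1 ≤ 3 / 4 * γ)
    (hη : ((f₀ : ℝ) / (n₁ + n₂ : ℕ)) ^ k / 2 ^ k ≤ 1)
    (m e₀ : ℕ) (S : Finset (Fin n₁ ⊕ Fin n₂ → Bool)) :
    (1 - ((f₀ : ℝ) / (n₁ + n₂ : ℕ)) ^ k / 2 ^ k) ^ m * (1 - m * γ / (e₀ + 1)) *
      ((dOp n₁ n₂ k) ^ (m + e₀)) phi S ≤
    (avgOp (satOf (k := k) (splitMap n₁ n₂)) ^ m) phi S := by
  have hn₁ : 0 < n₁ := by omega
  have hn₂ : 0 < n₂ := by omega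
  have hnn : 0 < n₁ + n₂ := by omega
  have hnR : (0 : ℝ) < ((n₁ + n₂ : ℕ) : ℝ) := by exact_mod_cast hnn
  have hcardW : Fintype.card (Fin (n₁ + n₂)) = n₁ + n₂ := by simp
  have hcard1 : Fintype.card (Fin n₁) = n₁ := by simp
  have hcard2 : Fintype.card (Fin n₂) = n₂ := by simp
  set α : ℝ := (n₁ : ℝ) / (n₁ + n₂ : ℕ) with hα
  set β : ℝ := (n₂ : ℝ) / (n₁ + n₂ : ℕ) with hβ
  have hα0 : 0 ≤ α := by positivity
  have hβ0 : 0 ≤ β := by positivity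
  have hαβ : α + β = 1 := by
    rw [hα, hβ, ← add_div]
    push_cast
    field_simp
  have hcomm : Commute (avgOp (satOf (k := k) (splitMap n₁ n₂))) (dOp n₁ n₂ k) := by
    unfold dOp
    apply Commute.add_right
    · exact (avgOp_comm _ _).smul_right _
    · exact (avgOp_comm _ _).smul_right _
  have h1 : ∀ S : Finset (Fin n₁ ⊕ Fin n₂ → Bool), S.Nonempty →
      avgOp (satOf (k := k) (splitMap n₁ n₂)) phi S =
        1 - kappa k (n₁ + n₂) (frozen (splitMap n₁ n₂) S).card := by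
    intro S hS
    have := avg_phi_nonempty (k := k) (splitMap n₁ n₂) (by simp; omega) hS
    simpa using this
  have h2 : ∀ S : Finset (Fin n₁ ⊕ Fin n₂ → Bool), S.Nonempty →
      dOp n₁ n₂ k phi S = 1 - (α * kappa k n₁ (frozen (Sum.inl : Fin n₁ → Fin n₁ ⊕ Fin n₂) S).card
      + β * kappa k n₂ (frozen (Sum.inr : Fin n₂ → Fin n₁ ⊕ Fin n₂) S).card) := by
    intro S hS
    have hexp : dOp n₁ n₂ k phi S =
        α * avgOp (satOf (k := k) (Sum.inl : Fin n₁ → Fin n₁ ⊕ Fin n₂)) phi S +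
        β * avgOp (satOf (k := k) (Sum.inr : Fin n₂ → Fin n₁ ⊕ Fin n₂)) phi S := rfl
    rw [hexp, avg_phi_nonempty (k := k) (Sum.inl : Fin n₁ → Fin n₁ ⊕ Fin n₂) (by simpa using hk₁) hS,
      avg_phi_nonempty (k := k) (Sum.inr : Fin n₂ → Fin n₁ ⊕ Fin n₂) (by simpa using hk₂) hS]
    simp only [Fintype.card_fin]
    linear_combination hαβ
  have h2e : dOp n₁ n₂ k phi ∅ = 0 := by
    unfold dOp
    simp only [LinearMap.add_apply, LinearMap.smul_apply, Pi.add_apply, Pi.smul_apply, smul_eq_mul]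
    rw [avg_phi_empty, avg_phi_empty]
    simp
  have hmono : ∀ (S S' : Finset (Fin n₁ ⊕ Fin n₂ → Bool)), S' ⊆ S → S'.Nonempty →
      (α * kappa k n₁ (frozen (Sum.inl : Fin n₁ → Fin n₁ ⊕ Fin n₂) S).card
      + β * kappa k n₂ (frozen (Sum.inr : Fin n₂ → Fin n₁ ⊕ Fin n₂) S).card) ≤
      (α * kappa k n₁ (frozen (Sum.inl : Fin n₁ → Fin n₁ ⊕ Fin n₂) S').card
      + β * kappa k n₂ (frozen (Sum.inr : Fin n₂ → Fin n₁ ⊕ Fin n₂) S').card) := by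
    intro S S' hS' _
    have h1 := (Finset.card_le_card (frozen_anti (Sum.inl : Fin n₁ → Fin n₁ ⊕ Fin n₂) hS'))
    have h2 := (Finset.card_le_card (frozen_anti (Sum.inr : Fin n₂ → Fin n₁ ⊕ Fin n₂) hS'))
    exact add_le_add (mul_le_mul_of_nonneg_left (kappa_mono k n₁ h1) hα0)
      (mul_le_mul_of_nonneg_left (kappa_mono k n₂ h2) hβ0)
  have hκ0 : ∀ (S : Finset (Fin n₁ ⊕ Fin n₂ → Bool)), S.Nonempty → 0 ≤
      (α * kappa k n₁ (frozen (Sum.inl : Fin n₁ → Fin n₁ ⊕ Fin n₂) S).card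
      + β * kappa k n₂ (frozen (Sum.inr : Fin n₂ → Fin n₁ ⊕ Fin n₂) S).card) := by
    intro S _
    exact add_nonneg (mul_nonneg hα0 (kappa_nonneg _ _ _)) (mul_nonneg hβ0 (kappa_nonneg _ _ _))
  have hκ : ∀ (S : Finset (Fin n₁ ⊕ Fin n₂ → Bool)), S.Nonempty →
      (α * kappa k n₁ (frozen (Sum.inl : Fin n₁ → Fin n₁ ⊕ Fin n₂) S).card
      + β * kappa k n₂ (frozen (Sum.inr : Fin n₂ → Fin n₁ ⊕ Fin n₂) S).card) ≤ 1 / 4 := by
    intro S hS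
    have h1 : kappa k n₁ (frozen (Sum.inl : Fin n₁ → Fin n₁ ⊕ Fin n₂) S).card ≤ 1 / 4 :=
      kappa_le_of_le hk2 hk₁ (by simpa using card_frozen_le (Sum.inl : Fin n₁ → Fin n₁ ⊕ Fin n₂) hS)
    have h2 : kappa k n₂ (frozen (Sum.inr : Fin n₂ → Fin n₁ ⊕ Fin n₂) S).card ≤ 1 / 4 :=
      kappa_le_of_le hk2 hk₂ (by simpa using card_frozen_le (Sum.inr : Fin n₂ → Fin n₁ ⊕ Fin n₂) hS)
    have h3 := mul_le_mul_of_nonneg_left h1 hα0
    have h4 := mul_le_mul_of_nonneg_left h2 hβ0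
    have h5 : α * (1 / 4) + β * (1 / 4) = 1 / 4 := by
      rw [← add_mul, hαβ]; norm_num
    linarith
  have hcmp : ∀ (S : Finset (Fin n₁ ⊕ Fin n₂ → Bool)), S.Nonempty →
      kappa k (n₁ + n₂) (frozen (splitMap n₁ n₂) S).card ≤ ((f₀ : ℝ) / (n₁ + n₂ : ℕ)) ^ k / 2 ^ k ∨
      kappa k (n₁ + n₂) (frozen (splitMap n₁ n₂) S).card ≤
        ((f₀ : ℝ) / (f₀ - (2 * k - 2))) ^ k *
        (α * kappa k n₁ (frozen (Sum.inl : Fin n₁ → Fin n₁ ⊕ Fin n₂) S).card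
        + β * kappa k n₂ (frozen (Sum.inr : Fin n₂ → Fin n₁ ⊕ Fin n₂) S).card) := by
    intro S hS
    have h1 : (frozen (Sum.inl : Fin n₁ → Fin n₁ ⊕ Fin n₂) S).card ≤ n₁ := by
      simpa using card_frozen_le (Sum.inl : Fin n₁ → Fin n₁ ⊕ Fin n₂) hS
    have h2 : (frozen (Sum.inr : Fin n₂ → Fin n₁ ⊕ Fin n₂) S).card ≤ n₂ := by
      simpa using card_frozen_le (Sum.inr : Fin n₂ → Fin n₁ ⊕ Fin n₂) hS
    have := kappa_compare_parts hk2 hn₁ hn₂ hk₁ hk₂ h1 h2 hf₀ (f₀ := f₀)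
    rw [card_frozen_split]
    exact this
  exact finite_compare (κ_F := fun S => kappa k (n₁ + n₂) (frozen (splitMap n₁ n₂) S).card)
    (κ := fun S => α * kappa k n₁ (frozen (Sum.inl : Fin n₁ → Fin n₁ ⊕ Fin n₂) S).card
      + β * kappa k n₂ (frozen (Sum.inr : Fin n₂ → Fin n₁ ⊕ Fin n₂) S).card)
    (R := ((f₀ : ℝ) / (f₀ - (2 * k - 2))) ^ k)
    hcomm (avgOp_isLocPos _) (dOp_isLocPos (by omega)) h1 (avg_phi_empty _) h2 h2e hmono hκ0 hκ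
    (by positivity) hη hγ0 hγ1 hR hcmp m e₀ S

end Split

end Vale.Agent.Lib.P170
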