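import Mathlib
import Vale.Agent.Lib.P170.Super

/-!
Approximate supermultiplicativity of the satisfiability probability.
-/

set_option linter.unusedSectionVars false

open Finset

namespace Vale.Agent.Lib.P170

lemma exists_f0 (k : ℕ) {γ : ℝ} (hγ : 0 < γ) :
    ∃ f₀ : ℕ, 2 * k ≤ f₀ ∧ ((f₀ : ℝ) / (f₀ - (2 * k - 2))) ^ k - 1 ≤ 3 / 4 * γ := by
  have h1 : Filter.Tendsto (fun n : ℕ => ((n : ℝ) / (n + (-(2 * (k : ℝ) - 2)))) ^ k)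
      Filter.atTop (nhds (1 ^ k)) := (tendsto_natCast_div_add_atTop (-(2 * (k : ℝ) - 2))).pow k
  rw [one_pow] at h1
  have h2 : ∀ᶠ n : ℕ in Filter.atTop, ((n : ℝ) / (n + (-(2 * (k : ℝ) - 2)))) ^ k < 1 + 3 / 4 * γ :=
    h1.eventually (gt_mem_nhds (by linarith))
  obtain ⟨f₀, hf1, hf2⟩ := (h2.and (Filter.eventually_ge_atTop (2 * k))).exists
  refine ⟨f₀, hf2, ?_⟩
  have : (f₀ : ℝ) - (2 * k - 2) = (f₀ : ℝ) + (-(2 * (k : ℝ) - 2)) := by ring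
  rw [this]
  linarith

/-- Combination of the finite inequalities under numerical hypotheses. -/
theorem supermult_core {k n₁ n₂ m e₀ a₀ b₀ f₀ : ℕ} {γ δ : ℝ} (hk : 2 ≤ k) (hk₁ : k ≤ n₁)
    (hk₂ : k ≤ n₂) (hf₀ : 2 * k ≤ f₀) (hγ0 : 0 ≤ γ) (hγ1 : γ ≤ 1)
    (hR : ((f₀ : ℝ) / (f₀ - (2 * k - 2))) ^ k - 1 ≤ 3 / 4 * γ)
    (hδ : 0 < δ) (hδ1 : δ < 1)
    (hη1 : ((f₀ : ℝ) / (n₁ + n₂ : ℕ)) ^ k / 2 ^ k ≤ 1)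
    (hmη : (m : ℝ) * (((f₀ : ℝ) / (n₁ + n₂ : ℕ)) ^ k / 2 ^ k) ≤ δ / 3)
    (hγterm : (m : ℝ) * γ / (e₀ + 1) ≤ δ / 3)
    (hx0 : 0 < (a₀ : ℝ) - ((m + e₀ : ℕ) : ℝ) * ((n₁ : ℝ) / (n₁ + n₂ : ℕ)))
    (hy0 : 0 < (b₀ : ℝ) - ((m + e₀ : ℕ) : ℝ) * ((n₂ : ℝ) / (n₁ + n₂ : ℕ)))
    (htail1 : ((m + e₀ : ℕ) : ℝ) * ((n₁ : ℝ) / (n₁ + n₂ : ℕ)) * ((n₂ : ℝ) / (n₁ + n₂ : ℕ)) /
      ((a₀ : ℝ) - ((m + e₀ : ℕ) : ℝ) * ((n₁ : ℝ) / (n₁ + n₂ : ℕ))) ^ 2 ≤ δ / 6)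
    (htail2 : ((m + e₀ : ℕ) : ℝ) * ((n₁ : ℝ) / (n₁ + n₂ : ℕ)) * ((n₂ : ℝ) / (n₁ + n₂ : ℕ)) /
      ((b₀ : ℝ) - ((m + e₀ : ℕ) : ℝ) * ((n₂ : ℝ) / (n₁ + n₂ : ℕ))) ^ 2 ≤ δ / 6) :
    (1 - δ) * (satProb k n₁ a₀ * satProb k n₂ b₀) ≤ satProb k (n₁ + n₂) m := by
  have hn₁0 : 0 < n₁ := by omega
  have hn₂0 : 0 < n₂ := by omega
  have hη0 : 0 ≤ ((f₀ : ℝ) / (n₁ + n₂ : ℕ)) ^ k / 2 ^ k := by positivity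
  have hpow : 1 - δ / 3 ≤ (1 - ((f₀ : ℝ) / (n₁ + n₂ : ℕ)) ^ k / 2 ^ k) ^ m := by
    have h1 := one_add_mul_le_pow (a := -(((f₀ : ℝ) / (n₁ + n₂ : ℕ)) ^ k / 2 ^ k))
      (by linarith) m
    have h2 : (1 + (-(((f₀ : ℝ) / (n₁ + n₂ : ℕ)) ^ k / 2 ^ k))) =
        1 - ((f₀ : ℝ) / (n₁ + n₂ : ℕ)) ^ k / 2 ^ k := by ring
    rw [h2] at h1
    linarith
  have hmain := finite_super (n₁ := n₁) (n₂ := n₂) hk hk₁ hk₂ hf₀ hγ0 hγ1 hR hη1 m e₀ univ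
  have hlow := dOp_lower (k := k) hk₁ hk₂ hn₁0 hn₂0 (m + e₀) a₀ b₀ rfl rfl hx0 hy0
  rw [avg_pow_eq (k := k) (splitMap n₁ n₂) (splitMap_injective n₁ n₂) m] at hmain
  have hQ0 : 0 ≤ satProb k n₁ a₀ * satProb k n₂ b₀ :=
    mul_nonneg (satProb_nonneg _ _ _) (satProb_nonneg _ _ _)
  generalize satProb k n₁ a₀ * satProb k n₂ b₀ = Q at *
  generalize ((dOp n₁ n₂ k) ^ (m + e₀)) phi univ = G at *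
  generalize satProb k (n₁ + n₂) m = P at *
  generalize (1 - ((f₀ : ℝ) / (n₁ + n₂ : ℕ)) ^ k / 2 ^ k) ^ m = A1 at *
  have hδ3 : 0 ≤ 1 - δ / 3 := by linarith
  have hA2 : 1 - δ / 3 ≤ 1 - (m : ℝ) * γ / (e₀ + 1) := by linarith
  generalize 1 - (m : ℝ) * γ / (e₀ + 1) = A2 at *
  have hA3 : 1 - δ / 3 ≤ 1 - ((m + e₀ : ℕ) : ℝ) * ((n₁ : ℝ) / (n₁ + n₂ : ℕ)) * ((n₂ : ℝ) / (n₁ + n₂ : ℕ)) /
      ((a₀ : ℝ) - ((m + e₀ : ℕ) : ℝ) * ((n₁ : ℝ) / (n₁ + n₂ : ℕ))) ^ 2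
      - ((m + e₀ : ℕ) : ℝ) * ((n₁ : ℝ) / (n₁ + n₂ : ℕ)) * ((n₂ : ℝ) / (n₁ + n₂ : ℕ)) /
      ((b₀ : ℝ) - ((m + e₀ : ℕ) : ℝ) * ((n₂ : ℝ) / (n₁ + n₂ : ℕ))) ^ 2 := by linarith
  generalize 1 - ((m + e₀ : ℕ) : ℝ) * ((n₁ : ℝ) / (n₁ + n₂ : ℕ)) * ((n₂ : ℝ) / (n₁ + n₂ : ℕ)) /
      ((a₀ : ℝ) - ((m + e₀ : ℕ) : ℝ) * ((n₁ : ℝ) / (n₁ + n₂ : ℕ))) ^ 2
      - ((m + e₀ : ℕ) : ℝ) * ((n₁ : ℝ) / (n₁ + n₂ : ℕ)) * ((n₂ : ℝ) / (n₁ + n₂ : ℕ)) /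
      ((b₀ : ℝ) - ((m + e₀ : ℕ) : ℝ) * ((n₂ : ℝ) / (n₁ + n₂ : ℕ))) ^ 2 = A3 at *
  have hfinal : (1 - δ) * Q ≤ A1 * A2 * A3 * Q := by
    apply mul_le_mul_of_nonneg_right _ hQ0
    have h1 : (1 - δ / 3) * (1 - δ / 3) ≤ A1 * A2 := mul_le_mul hpow hA2 hδ3 (by linarith)
    have h2 : (1 - δ / 3) * (1 - δ / 3) * (1 - δ / 3) ≤ A1 * A2 * A3 :=
      mul_le_mul h1 hA3 hδ3 (by nlinarith)
    nlinarith [sq_nonneg (δ / 3), mul_nonneg hδ.le (sq_nonneg δ)]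
  have hA12 : 0 ≤ A1 * A2 := mul_nonneg (by linarith) (by linarith)
  calc (1 - δ) * Q ≤ A1 * A2 * A3 * Q := hfinal
    _ = A1 * A2 * (A3 * Q) := by ring
    _ ≤ A1 * A2 * G := mul_le_mul_of_nonneg_left hlow hA12
    _ ≤ P := hmain

/-- Chebyshev tail estimate, numerically. -/
lemma tail_aux {Mα β x c ε C δ N : ℝ} (hM : Mα ≤ (c + ε / 2) * N) (hM0 : 0 ≤ Mα) (hβ1 : β ≤ 1)
    (hxlow : ε / 4 * N ≤ x) (hcε : c + ε / 2 ≤ C + ε) (hN : 0 < N)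
    (hε : 0 < ε) (hδ : 0 < δ) (hD : 96 * (C + ε) / (ε ^ 2 * δ) ≤ N) :
    Mα * β / x ^ 2 ≤ δ / 6 := by
  have h1 : Mα * β ≤ (C + ε) * N := by
    have h2 : Mα * β ≤ Mα * 1 := mul_le_mul_of_nonneg_left hβ1 hM0
    have h3 : (c + ε / 2) * N ≤ (C + ε) * N := mul_le_mul_of_nonneg_right hcε hN.le
    linarith
  have h4 : (ε / 4 * N) ^ 2 ≤ x ^ 2 := pow_le_pow_left₀ (by positivity) hxlow 2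
  have hx0 : 0 < x := lt_of_lt_of_le (by positivity) hxlow
  rw [div_le_iff₀ (by positivity)]
  have h5 : 96 * (C + ε) ≤ N * (ε ^ 2 * δ) := by
    have := (div_le_iff₀ (by positivity : (0 : ℝ) < ε ^ 2 * δ)).1 hD
    linarith
  have h6 : (C + ε) * N ≤ δ / 6 * (ε / 4 * N) ^ 2 := by
    have h7 : δ / 6 * (ε / 4 * N) ^ 2 = (N * (ε ^ 2 * δ)) * N / 96 := by ring
    rw [h7]
    have h8 : 96 * (C + ε) * N ≤ (N * (ε ^ 2 * δ)) * N :=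
      mul_le_mul_of_nonneg_right h5 hN.le
    linarith
  have h9 : δ / 6 * (ε / 4 * N) ^ 2 ≤ δ / 6 * x ^ 2 :=
    mul_le_mul_of_nonneg_left h4 (by positivity)
  linarith

lemma ceil_bound {a : ℝ} {n : ℕ} (h : ⌈a⌉₊ + 1 ≤ n) : a ≤ n := by
  have h1 : a ≤ ⌈a⌉₊ := Nat.le_ceil _
  have h2 : ((⌈a⌉₊ + 1 : ℕ) : ℝ) ≤ n := by exact_mod_cast h
  push_cast at h2
  linarith

lemma eta_bounds {k f₀ n : ℕ} {C δ : ℝ} {m : ℕ} (hk : 2 ≤ k) (hC : 0 < C) (hδ : 0 < δ)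
    (hfn : f₀ ≤ n) (hn : 0 < n) (hmle : (m : ℝ) ≤ C * n) (hEE : C * (f₀ : ℝ) ^ 2 / δ ≤ n) :
    ((f₀ : ℝ) / n) ^ k / 2 ^ k ≤ 1 ∧ (m : ℝ) * (((f₀ : ℝ) / n) ^ k / 2 ^ k) ≤ δ / 3 := by
  have hnpos : (0 : ℝ) < n := by exact_mod_cast hn
  have hfR : (f₀ : ℝ) ≤ n := by exact_mod_cast hfn
  have hfrat0 : 0 ≤ (f₀ : ℝ) / n := by positivity
  have hfrat1 : (f₀ : ℝ) / n ≤ 1 := by
    rw [div_le_one hnpos]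
    exact hfR
  have hη0 : 0 ≤ ((f₀ : ℝ) / n) ^ k / 2 ^ k := by positivity
  have hη2 : ((f₀ : ℝ) / n) ^ k / 2 ^ k ≤ ((f₀ : ℝ) / n) ^ 2 / 4 := by
    have h1 : ((f₀ : ℝ) / n) ^ k ≤ ((f₀ : ℝ) / n) ^ 2 :=
      pow_le_pow_of_le_one hfrat0 hfrat1 hk
    have h2 : (4 : ℝ) ≤ 2 ^ k := by
      calc (4 : ℝ) = 2 ^ 2 := by norm_num
        _ ≤ 2 ^ k := pow_le_pow_right₀ (by norm_num) hk
    calc ((f₀ : ℝ) / n) ^ k / 2 ^ k ≤ ((f₀ : ℝ) / n) ^ 2 / 2 ^ k :=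
          div_le_div_of_nonneg_right h1 (by positivity)
      _ ≤ ((f₀ : ℝ) / n) ^ 2 / 4 :=
          div_le_div_of_nonneg_left (by positivity) (by norm_num) h2
  constructor
  · have h1 : ((f₀ : ℝ) / n) ^ 2 ≤ 1 := by nlinarith
    linarith
  · have h1 : (m : ℝ) * (((f₀ : ℝ) / n) ^ k / 2 ^ k) ≤ (C * n) * (((f₀ : ℝ) / n) ^ 2 / 4) :=
      mul_le_mul hmle hη2 hη0 (by positivity)
    have h2 : (C * n) * (((f₀ : ℝ) / n) ^ 2 / 4) = C * (f₀ : ℝ) ^ 2 / (4 * n) := by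
      field_simp
    have h3 : C * (f₀ : ℝ) ^ 2 / (4 * n) ≤ δ / 3 := by
      rw [div_le_iff₀ (by positivity)]
      have := (div_le_iff₀ hδ).1 hEE
      nlinarith
    linarith

lemma gamma_bound {m e₀ n : ℕ} {C δ ε γ : ℝ} (hC : 0 < C) (hδ : 0 < δ) (hε : 0 < ε)
    (hn : (0 : ℝ) < n) (hγ0 : 0 ≤ γ) (hγ2 : γ ≤ δ * ε / (6 * C)) (hmle : (m : ℝ) ≤ C * n)
    (he₀lt : ε * n / 2 < (e₀ : ℝ) + 1) :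
    (m : ℝ) * γ / (e₀ + 1) ≤ δ / 3 := by
  have he₀pos : (0 : ℝ) < (e₀ : ℝ) + 1 := by positivity
  rw [div_le_iff₀ he₀pos]
  have h1 : (m : ℝ) * γ ≤ (C * n) * γ := mul_le_mul_of_nonneg_right hmle hγ0
  have h2 : (C * n) * γ ≤ (C * n) * (δ * ε / (6 * C)) :=
    mul_le_mul_of_nonneg_left hγ2 (by positivity)
  have h3 : (C * n) * (δ * ε / (6 * C)) = δ / 3 * (ε * n / 2) := by
    field_simp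
    ring
  have h4 : δ / 3 * (ε * n / 2) ≤ δ / 3 * ((e₀ : ℝ) + 1) :=
    mul_le_mul_of_nonneg_left he₀lt.le (by positivity)
  linarith

/-- Numerical data for the binomial splitting. -/
lemma split_data {n₁ n₂ m e₀ a₀ : ℕ} {c ε : ℝ} (hc : 0 ≤ c) (hε : 0 < ε)
    (hn₁ : (0 : ℝ) < n₁) (hn₂ : (0 : ℝ) < n₂)
    (hmle : (m : ℝ) ≤ c * (n₁ + n₂ : ℕ)) (he₀le : (e₀ : ℝ) ≤ ε * (n₁ + n₂ : ℕ) / 2)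
    (ha₀lt : (c + ε) * n₁ < (a₀ : ℝ) + 1) (h4 : 4 / ε ≤ n₁) :
    ((m + e₀ : ℕ) : ℝ) * ((n₁ : ℝ) / (n₁ + n₂ : ℕ)) ≤ (c + ε / 2) * n₁ ∧
    ε / 4 * n₁ ≤ (a₀ : ℝ) - ((m + e₀ : ℕ) : ℝ) * ((n₁ : ℝ) / (n₁ + n₂ : ℕ)) := by
  have hnR : ((n₁ + n₂ : ℕ) : ℝ) = n₁ + n₂ := by push_cast; ring
  have hnpos : (0 : ℝ) < ((n₁ + n₂ : ℕ) : ℝ) := by rw [hnR]; linarith
  have hMR : ((m + e₀ : ℕ) : ℝ) ≤ (c + ε / 2) * (n₁ + n₂ : ℕ) := by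
    push_cast at hmle he₀le ⊢
    nlinarith
  have hαnn : 0 ≤ (n₁ : ℝ) / (n₁ + n₂ : ℕ) := by positivity
  have hMα : ((m + e₀ : ℕ) : ℝ) * ((n₁ : ℝ) / (n₁ + n₂ : ℕ)) ≤ (c + ε / 2) * n₁ := by
    have h1 := mul_le_mul_of_nonneg_right hMR hαnn
    have h2 : ((c + ε / 2) * ((n₁ + n₂ : ℕ) : ℝ)) * ((n₁ : ℝ) / (n₁ + n₂ : ℕ)) = (c + ε / 2) * n₁ := by
      field_simp
    linarith
  refine ⟨hMα, ?_⟩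
  have hε1 : 1 ≤ ε / 4 * n₁ := by
    have := (div_le_iff₀ hε).1 h4
    linarith
  have h5 : (c + ε) * n₁ = (c + ε / 2) * n₁ + 2 * (ε / 4 * n₁) := by ring
  linarith

theorem supermult {k : ℕ} (hk : 2 ≤ k) {C ε δ : ℝ} (hC : 0 < C) (hε : 0 < ε) (hδ : 0 < δ) :
    ∃ N : ℕ, ∀ c : ℝ, 0 ≤ c → c ≤ C → ∀ n₁ n₂ : ℕ, N ≤ n₁ → N ≤ n₂ →
      (1 - δ) * (satProb k n₁ ⌊(c + ε) * n₁⌋₊ * satProb k n₂ ⌊(c + ε) * n₂⌋₊) ≤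
        satProb k (n₁ + n₂) ⌊c * ((n₁ + n₂ : ℕ) : ℝ)⌋₊ := by
  by_cases hδ1 : 1 ≤ δ
  · refine ⟨0, ?_⟩
    intro c _ _ n₁ n₂ _ _
    have h1 : (1 - δ) * (satProb k n₁ ⌊(c + ε) * n₁⌋₊ * satProb k n₂ ⌊(c + ε) * n₂⌋₊) ≤ 0 :=
      mul_nonpos_of_nonpos_of_nonneg (by linarith)
        (mul_nonneg (satProb_nonneg _ _ _) (satProb_nonneg _ _ _))
    exact h1.trans (satProb_nonneg _ _ _)
  push Not at hδ1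
  obtain ⟨γ, hγ0, hγ1, hγ2⟩ : ∃ γ : ℝ, 0 < γ ∧ γ ≤ 1 ∧ γ ≤ δ * ε / (6 * C) :=
    ⟨min 1 (δ * ε / (6 * C)), lt_min (by norm_num) (by positivity), min_le_left _ _,
      min_le_right _ _⟩
  obtain ⟨f₀, hf₀, hR⟩ := exists_f0 k hγ0
  refine ⟨max (max k f₀) (max (⌈4 / ε⌉₊ + 1) (max (⌈96 * (C + ε) / (ε ^ 2 * δ)⌉₊ + 1)
    (⌈C * (f₀ : ℝ) ^ 2 / δ⌉₊ + 1))), ?_⟩
  intro c hc0 hcC n₁ n₂ hn₁ hn₂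
  have hN1 : max k f₀ ≤ n₁ := (le_max_left _ _).trans hn₁
  have hN2 : max k f₀ ≤ n₂ := (le_max_left _ _).trans hn₂
  have hk₁ : k ≤ n₁ := (le_max_left _ _).trans hN1
  have hk₂ : k ≤ n₂ := (le_max_left _ _).trans hN2
  have hf₁ : f₀ ≤ n₁ := (le_max_right _ _).trans hN1
  have hR1 := (le_max_right _ _).trans hn₁
  have hR2 := (le_max_right _ _).trans hn₂
  have hA1 : ⌈4 / ε⌉₊ + 1 ≤ n₁ := (le_max_left _ _).trans hR1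
  have hA2 : ⌈4 / ε⌉₊ + 1 ≤ n₂ := (le_max_left _ _).trans hR2
  have hB := (le_max_right _ _).trans hR1
  have hB2 := (le_max_right _ _).trans hR2
  have hD1 := ceil_bound ((le_max_left _ _).trans hB : ⌈96 * (C + ε) / (ε ^ 2 * δ)⌉₊ + 1 ≤ n₁)
  have hD2 := ceil_bound ((le_max_left _ _).trans hB2 : ⌈96 * (C + ε) / (ε ^ 2 * δ)⌉₊ + 1 ≤ n₂)
  have hE1 : C * (f₀ : ℝ) ^ 2 / δ ≤ n₁ :=
    ceil_bound ((le_max_right _ _).trans hB : ⌈C * (f₀ : ℝ) ^ 2 / δ⌉₊ + 1 ≤ n₁)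
  have h4₁ := ceil_bound hA1
  have h4₂ := ceil_bound hA2
  have hn₁0 : 0 < n₁ := by omega
  have hn₂0 : 0 < n₂ := by omega
  have hn₁R : (0 : ℝ) < n₁ := by exact_mod_cast hn₁0
  have hn₂R : (0 : ℝ) < n₂ := by exact_mod_cast hn₂0
  have hnR : ((n₁ + n₂ : ℕ) : ℝ) = n₁ + n₂ := by push_cast; ring
  have hnpos : (0 : ℝ) < ((n₁ + n₂ : ℕ) : ℝ) := by rw [hnR]; linarith
  have hmle : ((⌊c * ((n₁ + n₂ : ℕ) : ℝ)⌋₊ : ℕ) : ℝ) ≤ c * (n₁ + n₂ : ℕ) :=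
    Nat.floor_le (by positivity)
  have hmleC : ((⌊c * ((n₁ + n₂ : ℕ) : ℝ)⌋₊ : ℕ) : ℝ) ≤ C * (n₁ + n₂ : ℕ) :=
    hmle.trans (mul_le_mul_of_nonneg_right hcC hnpos.le)
  have he₀le : ((⌊ε * ((n₁ + n₂ : ℕ) : ℝ) / 2⌋₊ : ℕ) : ℝ) ≤ ε * (n₁ + n₂ : ℕ) / 2 :=
    Nat.floor_le (by positivity)
  have he₀lt : ε * ((n₁ + n₂ : ℕ) : ℝ) / 2 < ((⌊ε * ((n₁ + n₂ : ℕ) : ℝ) / 2⌋₊ : ℕ) : ℝ) + 1 :=
    Nat.lt_floor_add_one _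
  have ha₀lt : (c + ε) * n₁ < ((⌊(c + ε) * n₁⌋₊ : ℕ) : ℝ) + 1 := Nat.lt_floor_add_one _
  have hb₀lt : (c + ε) * n₂ < ((⌊(c + ε) * n₂⌋₊ : ℕ) : ℝ) + 1 := Nat.lt_floor_add_one _
  generalize ⌊c * ((n₁ + n₂ : ℕ) : ℝ)⌋₊ = m at *
  generalize ⌊ε * ((n₁ + n₂ : ℕ) : ℝ) / 2⌋₊ = e₀ at *
  generalize ⌊(c + ε) * n₁⌋₊ = a₀ at *
  generalize ⌊(c + ε) * n₂⌋₊ = b₀ at *
  -- the numerical estimates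
  have hcε : c + ε / 2 ≤ C + ε := by linarith
  have hCε : 0 < C + ε := by linarith
  obtain ⟨hMα, hxlow⟩ := split_data hc0 hε hn₁R hn₂R hmle he₀le ha₀lt h4₁
  have hnR' : ((n₂ + n₁ : ℕ) : ℝ) = ((n₁ + n₂ : ℕ) : ℝ) := by push_cast; ring
  obtain ⟨hMβ, hylow⟩ := split_data (n₁ := n₂) (n₂ := n₁) (m := m) (e₀ := e₀) (a₀ := b₀) hc0 hε hn₂R hn₁R
    (by rw [hnR']; exact hmle) (by rw [hnR']; exact he₀le) hb₀lt h4₂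
  rw [hnR'] at hMβ hylow
  have hα0 : 0 ≤ (n₁ : ℝ) / (n₁ + n₂ : ℕ) := by positivity
  have hβ0 : 0 ≤ (n₂ : ℝ) / (n₁ + n₂ : ℕ) := by positivity
  have hα1 : (n₁ : ℝ) / (n₁ + n₂ : ℕ) ≤ 1 := by
    rw [div_le_one hnpos, hnR]; linarith
  have hβ1 : (n₂ : ℝ) / (n₁ + n₂ : ℕ) ≤ 1 := by
    rw [div_le_one hnpos, hnR]; linarith
  have hx0 := lt_of_lt_of_le (by positivity : (0 : ℝ) < ε / 4 * n₁) hxlow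
  have hy0 := lt_of_lt_of_le (by positivity : (0 : ℝ) < ε / 4 * n₂) hylow
  have htail1 := tail_aux hMα (by positivity) hβ1 hxlow hcε hn₁R hε hδ hD1
  have htail2 := tail_aux hMβ (by positivity) hα1 hylow hcε hn₂R hε hδ hD2
  have htail2' : ((m + e₀ : ℕ) : ℝ) * ((n₁ : ℝ) / (n₁ + n₂ : ℕ)) * ((n₂ : ℝ) / (n₁ + n₂ : ℕ)) /
      ((b₀ : ℝ) - ((m + e₀ : ℕ) : ℝ) * ((n₂ : ℝ) / (n₁ + n₂ : ℕ))) ^ 2 ≤ δ / 6 := by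
    have : ((m + e₀ : ℕ) : ℝ) * ((n₁ : ℝ) / (n₁ + n₂ : ℕ)) * ((n₂ : ℝ) / (n₁ + n₂ : ℕ)) =
        ((m + e₀ : ℕ) : ℝ) * ((n₂ : ℝ) / (n₁ + n₂ : ℕ)) * ((n₁ : ℝ) / (n₁ + n₂ : ℕ)) := by ring
    rw [this]
    exact htail2
  have hEE : C * (f₀ : ℝ) ^ 2 / δ ≤ ((n₁ + n₂ : ℕ) : ℝ) := by
    rw [hnR]; linarith
  obtain ⟨hη1, hmη⟩ := eta_bounds (n := n₁ + n₂) (m := m) hk hC hδ (by omega) (by omega)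
    hmleC hEE
  have hγterm := gamma_bound (m := m) (e₀ := e₀) (n := n₁ + n₂) hC hδ hε hnpos hγ0.le hγ2 hmleC he₀lt
  exact supermult_core hk hk₁ hk₂ hf₀ hγ0.le hγ1 hR hδ hδ1 hη1 hmη hγterm hx0 hy0 htail1 htail2'

end Vale.Agent.Lib.P170
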