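import Mathlib
import Vale.Agent.Lib.P170.Asymp

/-!
The first moment bound and elementary facts on threshold sequences.
-/

set_option linter.unusedSectionVars false

open Finset

namespace Vale.Agent.Lib.P170

section FirstMoment

variable {n k : ℕ}

/-- Indicator of membership of `σ`. -/
noncomputable def indOf (σ : Fin n → Bool) (S : Finset (Fin n → Bool)) : ℝ :=
  if σ ∈ S then 1 else 0

lemma card_frozen_singleton (σ : Fin n → Bool) :
    (frozen (id : Fin n → Fin n) ({σ} : Finset (Fin n → Bool))).card = n := by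
  have h : frozen (id : Fin n → Fin n) ({σ} : Finset (Fin n → Bool)) =
      univ.image (fun v => (v, !(σ v))) := by
    ext ⟨v, b⟩
    rw [mem_frozen]
    simp only [Finset.mem_singleton, forall_eq, id, Finset.mem_image, Finset.mem_univ, true_and,
      Prod.mk.injEq, exists_eq_left]
    cases hs : σ v <;> cases b <;> simp
  rw [h, Finset.card_image_of_injective]
  · simp
  · intro v w hvw
    exact congrArg Prod.fst hvw

lemma avg_ind (hk : k ≤ n) (σ : Fin n → Bool) (S : Finset (Fin n → Bool)) :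
    avgOp (satOf (k := k) (id : Fin n → Fin n)) (indOf σ) S =
      (1 - (2 : ℝ)⁻¹ ^ k) * indOf σ S := by
  have hkc : k ≤ Fintype.card (Fin n) := by simpa using hk
  by_cases hσ : σ ∈ S
  · have h1 : ∀ C : ProperClause (Fin n) k,
        indOf σ (S ∩ satOf id C) = phi (({σ} : Finset (Fin n → Bool)) ∩ satOf id C) := by
      intro C
      unfold indOf phi
      by_cases hC : σ ∈ satOf (id : Fin n → Fin n) C
      · have h2 : (({σ} : Finset (Fin n → Bool)) ∩ satOf id C).Nonempty :=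
          ⟨σ, by simp [hC]⟩
        simp [hσ, hC, h2]
      · have h2 : ¬ (({σ} : Finset (Fin n → Bool)) ∩ satOf id C).Nonempty := by
          rintro ⟨τ, hτ⟩
          simp only [Finset.mem_inter, Finset.mem_singleton] at hτ
          obtain ⟨rfl, h3⟩ := hτ
          exact hC h3
        simp [hC, h2]
    rw [avgOp_apply]
    simp only [h1]
    rw [← avgOp_apply, avg_phi_nonempty _ hkc (Finset.singleton_nonempty σ)]
    simp only [Fintype.card_fin]
    rw [card_frozen_singleton]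
    unfold indOf kappa
    have hc : ((n.choose k : ℕ) : ℝ) ≠ 0 := by
      exact_mod_cast (Nat.choose_pos hk).ne'
    have h2 : (2 : ℝ) ^ k ≠ 0 := by positivity
    simp only [hσ, if_true, mul_one, inv_pow]
    field_simp
  · have h1 : ∀ C : ProperClause (Fin n) k, indOf σ (S ∩ satOf id C) = 0 := by
      intro C
      unfold indOf
      simp [hσ]
    rw [avgOp_apply]
    simp only [h1]
    unfold indOf
    simp [hσ]

lemma avg_pow_ind (hk : k ≤ n) (σ : Fin n → Bool) (m : ℕ) (S : Finset (Fin n → Bool)) :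
    (avgOp (satOf (k := k) (id : Fin n → Fin n)) ^ m) (indOf σ) S =
      (1 - (2 : ℝ)⁻¹ ^ k) ^ m * indOf σ S := by
  induction m generalizing S with
  | zero => simp
  | succ m ih =>
    rw [pow_succ]
    simp only [Module.End.mul_apply]
    have h1 : avgOp (satOf (k := k) (id : Fin n → Fin n)) (indOf σ) =
        (1 - (2 : ℝ)⁻¹ ^ k) • indOf σ := by
      funext T
      simpa using avg_ind hk σ T
    rw [h1, map_smul]
    simp only [Pi.smul_apply, smul_eq_mul]
    rw [ih]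
    ring

/-- The first moment bound. -/
theorem satProb_first_moment (hk : k ≤ n) (m : ℕ) :
    satProb k n m ≤ 2 ^ n * (1 - (2 : ℝ)⁻¹ ^ k) ^ m := by
  rw [← avg_pow_eq (k := k) (id : Fin n → Fin n) Function.injective_id]
  have hle : ∀ S : Finset (Fin n → Bool), phi S ≤ (∑ σ : Fin n → Bool, indOf σ) S := by
    intro S
    simp only [Finset.sum_apply]
    by_cases hS : S.Nonempty
    · obtain ⟨σ, hσ⟩ := hS
      rw [phi_nonempty ⟨σ, hσ⟩]
      have h1 : indOf σ S = 1 := by simp [indOf, hσ]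
      have h2 : ∀ τ ∈ (univ : Finset (Fin n → Bool)), 0 ≤ indOf τ S := by
        intro τ _
        unfold indOf
        split_ifs <;> norm_num
      calc (1 : ℝ) = indOf σ S := h1.symm
        _ ≤ ∑ τ, indOf τ S := Finset.single_le_sum h2 (Finset.mem_univ σ)
    · rw [Finset.not_nonempty_iff_eq_empty] at hS
      subst hS
      rw [phi_empty]
      apply Finset.sum_nonneg
      intro τ _
      unfold indOf
      split_ifs <;> norm_num
  have h := IsLocPos.mono ((avgOp_isLocPos (satOf (k := k) (id : Fin n → Fin n))).pow m) hle univ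
  refine h.trans ?_
  rw [map_sum, Finset.sum_apply]
  simp only [avg_pow_ind hk]
  have h3 : ∀ τ : Fin n → Bool, indOf τ (univ : Finset (Fin n → Bool)) = 1 := by
    intro τ
    simp [indOf]
  simp only [h3, mul_one]
  rw [Finset.sum_const, Finset.card_univ]
  simp

lemma satProb_zero {k n : ℕ} (hk : k ≤ n) : satProb k n 0 = 1 := by
  rw [← avg_pow_eq (k := k) (id : Fin n → Fin n) Function.injective_id]
  simp only [pow_zero, Module.End.one_apply]
  exact phi_nonempty ⟨fun _ => true, Finset.mem_univ _⟩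

/-- For density above `2^(k+1)` the satisfiability probability is at most `1/2`. -/
lemma satProb_large_density {k n m : ℕ} (hk : k ≤ n) (hn : 1 ≤ n)
    (hm : 2 ^ (k + 1) * n ≤ m) : satProb k n m ≤ 1 / 2 := by
  have h1 := satProb_first_moment hk m
  have hx0 : (0 : ℝ) ≤ 1 - (2 : ℝ)⁻¹ ^ k := by
    have : (2 : ℝ)⁻¹ ^ k ≤ 1 := pow_le_one₀ (by norm_num) (by norm_num)
    linarith
  have hx1 : 1 - (2 : ℝ)⁻¹ ^ k ≤ 1 := by
    have : (0 : ℝ) ≤ (2 : ℝ)⁻¹ ^ k := by positivity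
    linarith
  have h2 : (1 - (2 : ℝ)⁻¹ ^ k) ^ m ≤ (1 - (2 : ℝ)⁻¹ ^ k) ^ (2 ^ (k + 1) * n) :=
    pow_le_pow_of_le_one hx0 hx1 hm
  have h3 : (1 - (2 : ℝ)⁻¹ ^ k) ≤ Real.exp (-((2 : ℝ)⁻¹ ^ k)) := Real.one_sub_le_exp_neg _
  have h4 : (1 - (2 : ℝ)⁻¹ ^ k) ^ (2 ^ (k + 1) * n) ≤
      (Real.exp (-((2 : ℝ)⁻¹ ^ k))) ^ (2 ^ (k + 1) * n) :=
    pow_le_pow_left₀ hx0 h3 _
  have h5 : (Real.exp (-((2 : ℝ)⁻¹ ^ k))) ^ (2 ^ (k + 1) * n) = Real.exp (-(2 * n)) := by
    rw [← Real.exp_nat_mul]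
    congr 1
    push_cast
    rw [pow_succ, inv_pow]
    field_simp
  have h6 : (2 : ℝ) ^ n * Real.exp (-(2 * n)) ≤ 1 / 2 := by
    have h7 : Real.exp (-(2 * (n : ℝ))) = (Real.exp (-2)) ^ n := by
      rw [← Real.exp_nat_mul]
      congr 1
      ring
    have h8 : Real.exp (-2) ≤ 1 / 4 := by
      have h9 : (4 : ℝ) ≤ Real.exp 2 := by
        have := Real.add_one_le_exp (1 : ℝ)
        have h10 : Real.exp 2 = Real.exp 1 * Real.exp 1 := by
          rw [← Real.exp_add]; norm_num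
        rw [h10]
        nlinarith
      rw [Real.exp_neg, inv_eq_one_div]
      exact one_div_le_one_div_of_le (by norm_num) h9
    rw [h7, ← mul_pow]
    have h11 : 2 * Real.exp (-2) ≤ 1 / 2 := by linarith
    have h12 : 0 ≤ 2 * Real.exp (-2) := by positivity
    calc (2 * Real.exp (-2)) ^ n ≤ (2 * Real.exp (-2)) ^ 1 :=
          pow_le_pow_of_le_one h12 (by linarith) hn
      _ ≤ 1 / 2 := by simpa using h11
  calc satProb k n m ≤ 2 ^ n * (1 - (2 : ℝ)⁻¹ ^ k) ^ m := h1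
    _ ≤ 2 ^ n * Real.exp (-(2 * n)) := by
        apply mul_le_mul_of_nonneg_left _ (by positivity)
        exact h2.trans (h4.trans (le_of_eq h5))
    _ ≤ 1 / 2 := h6

end FirstMoment

section ThresholdFacts

variable {k : ℕ} {r : ℕ → ℝ}

/-- Threshold sequences are bounded above. -/
lemma threshold_bounded (hr : IsThresholdSeq k r) :
    ∃ N : ℕ, ∀ n, N ≤ n → r n ≤ 2 ^ (k + 1) + 2 := by
  have h1 := (hr 1 (by norm_num)).1
  have h2 : ∀ᶠ n : ℕ in Filter.atTop, (3 / 4 : ℝ) < satProb k n ⌊(r n - 1) * n⌋₊ :=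
    h1.eventually (lt_mem_nhds (by norm_num))
  obtain ⟨N, hN⟩ := Filter.eventually_atTop.1 h2
  refine ⟨max N (max k 1), ?_⟩
  intro n hn
  by_contra hcon
  push Not at hcon
  have hnN : N ≤ n := (le_max_left _ _).trans hn
  have hnk : k ≤ n := ((le_max_left _ _).trans (le_max_right _ _)).trans hn
  have hn1 : 1 ≤ n := ((le_max_right _ _).trans (le_max_right _ _)).trans hn
  have hnR : (1 : ℝ) ≤ n := by exact_mod_cast hn1
  have hm : 2 ^ (k + 1) * n ≤ ⌊(r n - 1) * n⌋₊ := by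
    apply Nat.le_floor
    push_cast
    have : (2 : ℝ) ^ (k + 1) ≤ r n - 1 := by linarith
    exact mul_le_mul_of_nonneg_right this (by linarith)
  have h3 := satProb_large_density hnk hn1 hm
  have h4 := hN n hnN
  linarith

/-- Threshold sequences are eventually above `-ε`. -/
lemma threshold_lower (hr : IsThresholdSeq k r) {ε : ℝ} (hε : 0 < ε) :
    ∃ N : ℕ, ∀ n, N ≤ n → -ε < r n := by
  have h1 := (hr ε hε).2
  have h2 : ∀ᶠ n : ℕ in Filter.atTop, satProb k n ⌊(r n + ε) * n⌋₊ < (1 / 2 : ℝ) :=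
    h1.eventually (gt_mem_nhds (by norm_num))
  obtain ⟨N, hN⟩ := Filter.eventually_atTop.1 h2
  refine ⟨max N k, ?_⟩
  intro n hn
  by_contra hcon
  push Not at hcon
  have hnN : N ≤ n := (le_max_left _ _).trans hn
  have hnk : k ≤ n := (le_max_right _ _).trans hn
  have h3 : (r n + ε) * n ≤ 0 :=
    mul_nonpos_of_nonpos_of_nonneg (by linarith) (by positivity)
  have h4 : ⌊(r n + ε) * n⌋₊ = 0 := Nat.floor_of_nonpos h3
  have h5 := hN n hnN
  rw [h4, satProb_zero hnk] at h5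
  linarith

/-- Additive closure for threshold sequences. -/
theorem threshold_additive (hk : 2 ≤ k) (hr : IsThresholdSeq k r) {ε : ℝ} (hε : 0 < ε) :
    ∃ N : ℕ, ∀ n₁ n₂, N ≤ n₁ → N ≤ n₂ → min (r n₁) (r n₂) - ε ≤ r (n₁ + n₂) := by
  set ε' : ℝ := ε / 3 with hε'
  have hε'0 : 0 < ε' := by positivity
  obtain ⟨N₀, hN₀⟩ := threshold_bounded hr
  obtain ⟨N₄, hN₄⟩ := threshold_lower hr hε'0
  have hC : (0 : ℝ) < 2 ^ (k + 1) + 2 := by positivity
  obtain ⟨N₁, hN₁⟩ := supermult hk hC hε'0 (by norm_num : (0 : ℝ) < 1 / 10)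
  have h1 := (hr ε' hε'0).1
  have h2 := (hr ε' hε'0).2
  obtain ⟨N₂, hN₂⟩ := Filter.eventually_atTop.1
    (h1.eventually (lt_mem_nhds (by norm_num : (9 / 10 : ℝ) < 1)))
  obtain ⟨N₃, hN₃⟩ := Filter.eventually_atTop.1
    (h2.eventually (gt_mem_nhds (by norm_num : (0 : ℝ) < 1 / 10)))
  refine ⟨max (max N₀ N₄) (max N₁ (max N₂ (max N₃ k))), ?_⟩
  intro n₁ n₂ hn₁ hn₂
  have hA := (le_max_left _ _).trans hn₁
  have hB := (le_max_right _ _).trans hn₁
  have hA₂ := (le_max_left _ _).trans hn₂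
  have hB₂ := (le_max_right _ _).trans hn₂
  have h0₁ : N₀ ≤ n₁ := (le_max_left _ _).trans hA
  have h0₂ : N₀ ≤ n₂ := (le_max_left _ _).trans hA₂
  have h4s : N₄ ≤ n₁ + n₂ := by
    have : N₄ ≤ n₁ := (le_max_right _ _).trans hA
    omega
  have h1₁ : N₁ ≤ n₁ := (le_max_left _ _).trans hB
  have h1₂ : N₁ ≤ n₂ := (le_max_left _ _).trans hB₂
  have hC' := (le_max_right _ _).trans hB
  have hC₂ := (le_max_right _ _).trans hB₂
  have h2₁ : N₂ ≤ n₁ := (le_max_left _ _).trans hC'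
  have h2₂ : N₂ ≤ n₂ := (le_max_left _ _).trans hC₂
  have hD := (le_max_right _ _).trans hC'
  have hD₂ := (le_max_right _ _).trans hC₂
  have h3s : N₃ ≤ n₁ + n₂ := by
    have : N₃ ≤ n₁ := (le_max_left _ _).trans hD
    omega
  have hk₁ : k ≤ n₁ := (le_max_right _ _).trans hD
  have hk₂ : k ≤ n₂ := (le_max_right _ _).trans hD₂
  have hks : k ≤ n₁ + n₂ := by omega
  set c : ℝ := min (r n₁) (r n₂) - 2 * ε' with hc
  by_cases hc0 : c ≤ 0
  · have := hN₄ (n₁ + n₂) h4s
    have h3e : ε = 3 * ε' := by rw [hε']; ring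
    rw [hc] at hc0
    linarith
  push Not at hc0
  have hcC : c ≤ 2 ^ (k + 1) + 2 := by
    have h3 : min (r n₁) (r n₂) ≤ r n₁ := min_le_left _ _
    have := hN₀ n₁ h0₁
    rw [hc]
    linarith
  have hsm := hN₁ c hc0.le hcC n₁ n₂ h1₁ h1₂
  have hP₁ : (9 / 10 : ℝ) ≤ satProb k n₁ ⌊(c + ε') * n₁⌋₊ := by
    have h3 := (hN₂ n₁ h2₁).le
    refine h3.trans (satProb_anti hk₁ ?_)
    apply Nat.floor_le_floor
    apply mul_le_mul_of_nonneg_right _ (by positivity)
    have : min (r n₁) (r n₂) ≤ r n₁ := min_le_left _ _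
    rw [hc]
    linarith
  have hP₂ : (9 / 10 : ℝ) ≤ satProb k n₂ ⌊(c + ε') * n₂⌋₊ := by
    have h3 := (hN₂ n₂ h2₂).le
    refine h3.trans (satProb_anti hk₂ ?_)
    apply Nat.floor_le_floor
    apply mul_le_mul_of_nonneg_right _ (by positivity)
    have : min (r n₁) (r n₂) ≤ r n₂ := min_le_right _ _
    rw [hc]
    linarith
  by_contra hcon
  push Not at hcon
  have h3e : ε = 3 * ε' := by rw [hε']; ring
  have hlt : r (n₁ + n₂) + ε' ≤ c := by
    rw [hc]; linarith
  have hP₃ : satProb k (n₁ + n₂) ⌊c * ((n₁ + n₂ : ℕ) : ℝ)⌋₊ < 1 / 10 := by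
    have h3 := hN₃ (n₁ + n₂) h3s
    refine lt_of_le_of_lt (satProb_anti hks ?_) h3
    apply Nat.floor_le_floor
    exact mul_le_mul_of_nonneg_right hlt (by positivity)
  have hprod : (9 / 10 : ℝ) * (9 / 10) ≤
      satProb k n₁ ⌊(c + ε') * n₁⌋₊ * satProb k n₂ ⌊(c + ε') * n₂⌋₊ :=
    mul_le_mul hP₁ hP₂ (by norm_num) (satProb_nonneg _ _ _)
  nlinarith

end ThresholdFacts

end Vale.Agent.Lib.P170
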