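import Mathlib
import Vale.Agent.Lib.P170.FirstMoment

/-!
Adding a few variables: slow variation of the threshold.
-/

set_option linter.unusedSectionVars false

open Finset

namespace Vale.Agent.Lib.P170

section Lower

variable {n L k : ℕ}

/-- Merging the extra `L` variables into the variable `0`. -/
def extMap (n L : ℕ) (hn : 0 < n) : Fin (n + L) → Fin n :=
  fun w => if h : w.1 < n then ⟨w.1, h⟩ else ⟨0, hn⟩

lemma extMap_castAdd (hn : 0 < n) (i : Fin n) : extMap n L hn (Fin.castAdd L i) = i := by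
  unfold extMap
  simp

open Classical in
lemma card_frozen_ext (hn : 0 < n) {S : Finset (Fin n → Bool)} (hS : S.Nonempty) :
    (frozen (extMap n L hn) S).card ≤ (frozen (id : Fin n → Fin n) S).card + L := by
  have h1 : (frozen (extMap n L hn) S).card =
      ∑ w : Fin (n + L), ∑ b : Bool, if (∀ σ ∈ S, σ (extMap n L hn w) ≠ b) then 1 else 0 := by
    unfold frozen
    rw [Finset.card_filter, Fintype.sum_prod_type]
  have h2 : (frozen (id : Fin n → Fin n) S).card =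
      ∑ w : Fin n, ∑ b : Bool, if (∀ σ ∈ S, σ w ≠ b) then 1 else 0 := by
    unfold frozen
    rw [Finset.card_filter, Fintype.sum_prod_type]
    rfl
  rw [h1, h2, Fin.sum_univ_add]
  apply Nat.add_le_add
  · simp only [extMap_castAdd]
    exact le_refl _
  · have hone : ∀ v : Fin n, (∑ b : Bool, if (∀ σ ∈ S, σ v ≠ b) then 1 else 0) ≤ 1 := by
      intro v
      obtain ⟨τ, hτ⟩ := hS
      rw [Fintype.sum_bool]
      cases hv : τ v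
      · have : ¬ (∀ σ ∈ S, σ v ≠ false) := by
          push Not
          exact ⟨τ, hτ, hv⟩
        simp only [this, if_false]
        split_ifs <;> omega
      · have : ¬ (∀ σ ∈ S, σ v ≠ true) := by
          push Not
          exact ⟨τ, hτ, hv⟩
        simp only [this, if_false]
        split_ifs <;> omega
    calc ∑ j : Fin L, ∑ b : Bool, (if (∀ σ ∈ S, σ (extMap n L hn (Fin.natAdd n j)) ≠ b) then 1 else 0)
        ≤ ∑ _j : Fin L, 1 := Finset.sum_le_sum (fun j _ => hone _)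
      _ = L := by simp

/-- The finite comparison for adding `L` variables. -/
theorem finite_extra (hk : 2 ≤ k) (hkn : k ≤ n) {f₀ : ℕ} (hf₀ : k ≤ f₀) {γ : ℝ}
    (hγ0 : 0 ≤ γ) (hγ1 : γ ≤ 1)
    (hR : (((f₀ : ℝ) + L) / ((f₀ : ℝ) + 1 - k)) ^ k - 1 ≤ 3 / 4 * γ)
    (hη : (((f₀ : ℝ) + L) / n) ^ k / 2 ^ k ≤ 1) (m e₀ : ℕ) :
    (1 - (((f₀ : ℝ) + L) / n) ^ k / 2 ^ k) ^ m * (1 - m * γ / (e₀ + 1)) * satProb k n (m + e₀) ≤
      satProb k (n + L) m := by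
  have hn : 0 < n := by omega
  have hkc : k ≤ Fintype.card (Fin n) := by simpa using hkn
  have hmono : ∀ (S S' : Finset (Fin n → Bool)), S' ⊆ S → S'.Nonempty →
      kappa k n (frozen (id : Fin n → Fin n) S).card ≤ kappa k n (frozen (id : Fin n → Fin n) S').card := by
    intro S S' hS' _
    exact kappa_mono k n (Finset.card_le_card (frozen_anti _ hS'))
  have hκ : ∀ (S : Finset (Fin n → Bool)), S.Nonempty →
      kappa k n (frozen (id : Fin n → Fin n) S).card ≤ 1 / 4 := by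
    intro S hS
    exact kappa_le_of_le hk hkn (by simpa using card_frozen_le (id : Fin n → Fin n) hS)
  have hcmp : ∀ (S : Finset (Fin n → Bool)), S.Nonempty →
      kappa k (n + L) (frozen (extMap n L hn) S).card ≤ (((f₀ : ℝ) + L) / n) ^ k / 2 ^ k ∨
      kappa k (n + L) (frozen (extMap n L hn) S).card ≤
        (((f₀ : ℝ) + L) / ((f₀ : ℝ) + 1 - k)) ^ k * kappa k n (frozen (id : Fin n → Fin n) S).card := by
    intro S hS
    have h1 : (frozen (extMap n L hn) S).card ≤ n + L := by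
      simpa using card_frozen_le (extMap n L hn) hS
    exact kappa_compare_extra (by omega) hn hkn h1 (card_frozen_ext hn hS) hf₀
  have h1 : ∀ (S : Finset (Fin n → Bool)), S.Nonempty →
      avgOp (satOf (k := k) (extMap n L hn)) phi S =
        1 - kappa k (n + L) (frozen (extMap n L hn) S).card := by
    intro S hS
    have := avg_phi_nonempty (k := k) (extMap n L hn) (by simp; omega) hS
    simpa using this
  have h2 : ∀ (S : Finset (Fin n → Bool)), S.Nonempty →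
      avgOp (satOf (k := k) (id : Fin n → Fin n)) phi S =
        1 - kappa k n (frozen (id : Fin n → Fin n) S).card := by
    intro S hS
    have := avg_phi_nonempty (k := k) (id : Fin n → Fin n) hkc hS
    simpa using this
  have hmain := finite_compare
    (L_F := avgOp (satOf (k := k) (extMap n L hn)))
    (L := avgOp (satOf (k := k) (id : Fin n → Fin n)))
    (κ_F := fun S => kappa k (n + L) (frozen (extMap n L hn) S).card)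
    (κ := fun S => kappa k n (frozen (id : Fin n → Fin n) S).card)
    (R := (((f₀ : ℝ) + L) / ((f₀ : ℝ) + 1 - k)) ^ k)
    (avgOp_comm _ _) (avgOp_isLocPos _) (avgOp_isLocPos _) h1 (avg_phi_empty _) h2 (avg_phi_empty _)
    hmono (fun S _ => kappa_nonneg _ _ _) hκ (by positivity) hη hγ0 hγ1 hR hcmp m e₀ univ
  rw [avg_pow_eq (k := k) (id : Fin n → Fin n) Function.injective_id] at hmain
  exact hmain.trans (avg_pow_le _ _)

lemma exists_t0 (k : ℕ) {γ : ℝ} (hγ : 0 < γ) : ∃ t₀ : ℝ, 0 < t₀ ∧ (1 + t₀) ^ k - 1 ≤ 3 / 4 * γ := by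
  have h1 : Filter.Tendsto (fun t : ℝ => (1 + t) ^ k) (nhdsWithin 0 (Set.Ioi 0)) (nhds ((1 + 0) ^ k)) := by
    apply Filter.Tendsto.mono_left _ nhdsWithin_le_nhds
    apply Continuous.tendsto
    fun_prop
  simp only [add_zero, one_pow] at h1
  have h2 : ∀ᶠ t : ℝ in nhdsWithin 0 (Set.Ioi 0), (1 + t) ^ k < 1 + 3 / 4 * γ :=
    h1.eventually (gt_mem_nhds (by linarith))
  have h3 : ∀ᶠ t : ℝ in nhdsWithin 0 (Set.Ioi 0), 0 < t := eventually_mem_nhdsWithin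
  obtain ⟨t, ht1, ht2⟩ := (h2.and h3).exists
  exact ⟨t, ht2, by linarith⟩

/-- Numerical estimate for `η` in the slow variation estimate. -/
lemma eta_extra {k n L f₀ m : ℕ} {A θ C δ : ℝ} (hk : 2 ≤ k) (hnpos : 0 < n)
    (hA : 0 ≤ A) (hC : 0 < C) (hδ : 0 < δ)
    (hf : (f₀ : ℝ) + L ≤ A * ((L : ℝ) + (k + 1))) (hmle : (m : ℝ) ≤ 2 * C * n)
    (hθ : θ = δ / (6 * C * A ^ k + 1)) (hLk : (L : ℝ) ^ k ≤ θ * (n : ℝ) ^ (k - 1))
    (hn : 6 * C * A ^ k * ((k : ℝ) + 1) ^ k / δ + 1 ≤ n) (hn2 : δ / (6 * C) ≤ n) :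
    (((f₀ : ℝ) + L) / n) ^ k / 2 ^ k ≤ 1 ∧
    (m : ℝ) * (((((f₀ : ℝ) + L) / n) ^ k / 2 ^ k)) ≤ δ / 3 := by
  have hnR : (0 : ℝ) < n := by exact_mod_cast hnpos
  have hn1 : (1 : ℝ) ≤ n := by exact_mod_cast hnpos
  have hkpos : 0 < k := by omega
  have hk1 : k - 1 + 1 = k := by omega
  have hpow_split : (n : ℝ) ^ k = (n : ℝ) ^ (k - 1) * n := by
    rw [← pow_succ, hk1]
  have hnk1 : (n : ℝ) ≤ (n : ℝ) ^ (k - 1) := by
    calc (n : ℝ) = (n : ℝ) ^ 1 := (pow_one _).symm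
      _ ≤ (n : ℝ) ^ (k - 1) := pow_le_pow_right₀ hn1 (by omega)
  have hnk1pos : (0 : ℝ) < (n : ℝ) ^ (k - 1) := by positivity
  have hX : ((f₀ : ℝ) + L) ^ k ≤ A ^ k * 2 ^ (k - 1) * ((L : ℝ) ^ k + ((k : ℝ) + 1) ^ k) := by
    have h1 : ((f₀ : ℝ) + L) ^ k ≤ (A * ((L : ℝ) + (k + 1))) ^ k :=
      pow_le_pow_left₀ (by positivity) hf k
    have h2 : (((L : ℝ) + (k + 1)) / 2) ^ k ≤ ((L : ℝ) ^ k + ((k : ℝ) + 1) ^ k) / 2 := by
      have := (convexOn_pow k).2 (x := (L : ℝ)) (y := (k : ℝ) + 1)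
        (Set.mem_Ici.2 (by positivity)) (Set.mem_Ici.2 (by positivity))
        (by norm_num : (0 : ℝ) ≤ 1 / 2) (by norm_num : (0 : ℝ) ≤ 1 / 2) (by norm_num)
      simp only [smul_eq_mul] at this
      have h3 : (1 / 2 : ℝ) * (L : ℝ) + 1 / 2 * ((k : ℝ) + 1) = ((L : ℝ) + (k + 1)) / 2 := by ring
      rw [h3] at this
      linarith
    have h3 : ((L : ℝ) + (k + 1)) ^ k ≤ 2 ^ (k - 1) * ((L : ℝ) ^ k + ((k : ℝ) + 1) ^ k) := by
      rw [div_pow] at h2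
      have h4 : (2 : ℝ) ^ k = 2 ^ (k - 1) * 2 := by
        rw [← pow_succ, hk1]
      rw [div_le_iff₀ (by positivity)] at h2
      rw [h4] at h2
      have hp : (0 : ℝ) ≤ 2 ^ (k - 1) := by positivity
      nlinarith
    calc ((f₀ : ℝ) + L) ^ k ≤ (A * ((L : ℝ) + (k + 1))) ^ k := h1
      _ = A ^ k * ((L : ℝ) + (k + 1)) ^ k := mul_pow _ _ _
      _ ≤ A ^ k * (2 ^ (k - 1) * ((L : ℝ) ^ k + ((k : ℝ) + 1) ^ k)) :=
          mul_le_mul_of_nonneg_left h3 (by positivity)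
      _ = _ := by ring
  have hη : (((f₀ : ℝ) + L) / n) ^ k / 2 ^ k ≤ A ^ k * ((L : ℝ) ^ k + ((k : ℝ) + 1) ^ k) / (2 * (n : ℝ) ^ k) := by
    rw [div_pow, div_div]
    have h4 : (2 : ℝ) ^ k = 2 ^ (k - 1) * 2 := by
      rw [← pow_succ, hk1]
    rw [div_le_div_iff₀ (by positivity) (by positivity)]
    have hnk : (0 : ℝ) < (n : ℝ) ^ k := by positivity
    have h5 : ((f₀ : ℝ) + L) ^ k * (2 * (n : ℝ) ^ k) ≤
        (A ^ k * 2 ^ (k - 1) * ((L : ℝ) ^ k + ((k : ℝ) + 1) ^ k)) * (2 * (n : ℝ) ^ k) :=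
      mul_le_mul_of_nonneg_right hX (by positivity)
    calc ((f₀ : ℝ) + L) ^ k * (2 * (n : ℝ) ^ k)
        ≤ (A ^ k * 2 ^ (k - 1) * ((L : ℝ) ^ k + ((k : ℝ) + 1) ^ k)) * (2 * (n : ℝ) ^ k) := h5
      _ = A ^ k * ((L : ℝ) ^ k + ((k : ℝ) + 1) ^ k) * ((n : ℝ) ^ k * 2 ^ k) := by
          rw [h4]; ring
  have hAk : 0 ≤ A ^ k := by positivity
  have hden : 0 < 6 * C * A ^ k + 1 := by positivity
  have hθ0 : 0 < θ := by rw [hθ]; positivity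
  have hkR : (0 : ℝ) ≤ ((k : ℝ) + 1) ^ k := by positivity
  -- main bound `n * η ≤ δ/6`
  have hnη : (n : ℝ) * (A ^ k * ((L : ℝ) ^ k + ((k : ℝ) + 1) ^ k) / (2 * (n : ℝ) ^ k)) ≤ δ / (6 * C) := by
    have h1 : (n : ℝ) * (A ^ k * ((L : ℝ) ^ k + ((k : ℝ) + 1) ^ k) / (2 * (n : ℝ) ^ k)) =
        A ^ k * ((L : ℝ) ^ k + ((k : ℝ) + 1) ^ k) / (2 * (n : ℝ) ^ (k - 1)) := by
      rw [hpow_split]
      field_simp
    rw [h1]
    rw [div_le_div_iff₀ (by positivity) (by positivity)]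
    have h2 : A ^ k * (L : ℝ) ^ k * (6 * C) ≤ δ * (n : ℝ) ^ (k - 1) := by
      have h3 : A ^ k * (L : ℝ) ^ k * (6 * C) ≤ A ^ k * (θ * (n : ℝ) ^ (k - 1)) * (6 * C) := by
        apply mul_le_mul_of_nonneg_right _ (by positivity)
        exact mul_le_mul_of_nonneg_left hLk hAk
      have h4 : A ^ k * (θ * (n : ℝ) ^ (k - 1)) * (6 * C) = ((6 * C * A ^ k) * θ) * (n : ℝ) ^ (k - 1) := by
        ring
      have h5 : (6 * C * A ^ k) * θ ≤ δ := by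
        rw [hθ]
        rw [← mul_div_assoc, div_le_iff₀ hden]
        nlinarith
      have h6 : ((6 * C * A ^ k) * θ) * (n : ℝ) ^ (k - 1) ≤ δ * (n : ℝ) ^ (k - 1) :=
        mul_le_mul_of_nonneg_right h5 hnk1pos.le
      linarith
    have h7 : A ^ k * ((k : ℝ) + 1) ^ k * (6 * C) ≤ δ * (n : ℝ) ^ (k - 1) := by
      have h8 : 6 * C * A ^ k * ((k : ℝ) + 1) ^ k / δ ≤ n := by linarith
      have h9 := (div_le_iff₀ hδ).1 h8
      have h10 : (n : ℝ) * δ ≤ δ * (n : ℝ) ^ (k - 1) := by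
        rw [mul_comm]
        exact mul_le_mul_of_nonneg_left hnk1 hδ.le
      nlinarith
    nlinarith
  have hηfull : (((f₀ : ℝ) + L) / n) ^ k / 2 ^ k ≤ δ / (6 * C) / n := by
    rw [le_div_iff₀ hnR]
    have := mul_le_mul_of_nonneg_left hη hnR.le
    linarith
  have hη0 : 0 ≤ (((f₀ : ℝ) + L) / n) ^ k / 2 ^ k := by positivity
  constructor
  · have h1 : δ / (6 * C) / n ≤ 1 := by
      rw [div_le_one hnR]
      exact hn2
    linarith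
  · calc (m : ℝ) * ((((f₀ : ℝ) + L) / n) ^ k / 2 ^ k)
        ≤ (2 * C * n) * (δ / (6 * C) / n) := mul_le_mul hmle hηfull hη0 (by positivity)
      _ = δ / 3 := by field_simp; ring

lemma ceil_param {L k f₀ : ℕ} {t₀ : ℝ} (ht : 0 < t₀) (hk1 : 1 ≤ k)
    (hf : f₀ = k + ⌈((L : ℝ) + k) / t₀⌉₊) :
    (((f₀ : ℝ) + L) / ((f₀ : ℝ) + 1 - k)) ≤ 1 + t₀ ∧
    (f₀ : ℝ) + L ≤ (1 + 1 / t₀) * ((L : ℝ) + (k + 1)) := by
  have hc1 : ((L : ℝ) + k) / t₀ ≤ (⌈((L : ℝ) + k) / t₀⌉₊ : ℝ) := Nat.le_ceil _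
  have hc2 : (⌈((L : ℝ) + k) / t₀⌉₊ : ℝ) < ((L : ℝ) + k) / t₀ + 1 :=
    Nat.ceil_lt_add_one (by positivity)
  have hfR : (f₀ : ℝ) = k + (⌈((L : ℝ) + k) / t₀⌉₊ : ℝ) := by rw [hf]; push_cast; ring
  have hkR : (1 : ℝ) ≤ k := by exact_mod_cast hk1
  have hL0 : (0 : ℝ) ≤ L := by positivity
  have hdiv0 : 0 ≤ ((L : ℝ) + k) / t₀ := by positivity
  have hD : (0 : ℝ) < (f₀ : ℝ) + 1 - k := by rw [hfR]; linarith
  constructor
  · rw [div_le_iff₀ hD]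
    have h1 : (L : ℝ) + k ≤ t₀ * (⌈((L : ℝ) + k) / t₀⌉₊ : ℝ) := by
      have := (div_le_iff₀ ht).1 hc1
      linarith
    rw [hfR]
    nlinarith
  · have h2 : (1 + 1 / t₀) * ((L : ℝ) + (k + 1)) = (L : ℝ) + k + 1 + ((L : ℝ) + k) / t₀ + 1 / t₀ := by
      field_simp
      ring
    have h3 : 0 < 1 / t₀ := by positivity
    rw [h2, hfR]
    linarith

/-- Combination under numerical hypotheses. -/
lemma slow_core {k n L m e₀ f₀ a₀ : ℕ} {γ δ : ℝ} (hk : 2 ≤ k) (hkn : k ≤ n) (hf₀k : k ≤ f₀)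
    (hγ0 : 0 ≤ γ) (hγ1 : γ ≤ 1) (hR : (((f₀ : ℝ) + L) / ((f₀ : ℝ) + 1 - k)) ^ k - 1 ≤ 3 / 4 * γ)
    (hδ : 0 < δ) (hδ1 : δ < 1) (hη1 : (((f₀ : ℝ) + L) / n) ^ k / 2 ^ k ≤ 1)
    (hmη : (m : ℝ) * (((((f₀ : ℝ) + L) / n) ^ k / 2 ^ k)) ≤ δ / 3)
    (hγterm : (m : ℝ) * γ / (e₀ + 1) ≤ δ / 3) (hfl : m + e₀ ≤ a₀) :
    (1 - δ) * satProb k n a₀ ≤ satProb k (n + L) m := by
  have hmain := finite_extra hk hkn hf₀k hγ0 hγ1 hR hη1 m e₀
  have hP : satProb k n a₀ ≤ satProb k n (m + e₀) := satProb_anti hkn hfl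
  have hη0 : 0 ≤ (((f₀ : ℝ) + L) / n) ^ k / 2 ^ k := by positivity
  have hpow : 1 - δ / 3 ≤ (1 - (((f₀ : ℝ) + L) / n) ^ k / 2 ^ k) ^ m := by
    have h1 := one_add_mul_le_pow (a := -((((f₀ : ℝ) + L) / n) ^ k / 2 ^ k)) (by linarith) m
    have h2 : (1 + (-((((f₀ : ℝ) + L) / n) ^ k / 2 ^ k))) =
        1 - ((((f₀ : ℝ) + L) / n) ^ k / 2 ^ k) := by ring
    rw [h2] at h1
    linarith
  have hδ3 : 0 ≤ 1 - δ / 3 := by linarith
  have hA2 : 1 - δ / 3 ≤ 1 - (m : ℝ) * γ / (e₀ + 1) := by linarith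
  have hprod : (1 - δ) ≤ (1 - (((f₀ : ℝ) + L) / n) ^ k / 2 ^ k) ^ m * (1 - (m : ℝ) * γ / (e₀ + 1)) := by
    have h1 : (1 - δ / 3) * (1 - δ / 3) ≤
        (1 - (((f₀ : ℝ) + L) / n) ^ k / 2 ^ k) ^ m * (1 - (m : ℝ) * γ / (e₀ + 1)) :=
      mul_le_mul hpow hA2 hδ3 (by linarith)
    nlinarith [sq_nonneg (δ / 3)]
  calc (1 - δ) * satProb k n a₀
      ≤ (1 - δ) * satProb k n (m + e₀) :=
        mul_le_mul_of_nonneg_left hP (by linarith)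
    _ ≤ (1 - (((f₀ : ℝ) + L) / n) ^ k / 2 ^ k) ^ m * (1 - (m : ℝ) * γ / (e₀ + 1)) *
          satProb k n (m + e₀) :=
        mul_le_mul_of_nonneg_right hprod (satProb_nonneg _ _ _)
    _ ≤ satProb k (n + L) m := hmain

lemma gamma_bound_extra {m e₀ n : ℕ} {C δ ε γ : ℝ} (hC : 0 < C) (hδ : 0 < δ) (hε : 0 < ε)
    (hn : (0 : ℝ) < n) (hγ0 : 0 ≤ γ) (hγ2 : γ ≤ δ * ε / (24 * C)) (hm2 : (m : ℝ) ≤ 2 * C * n)
    (he₀lt : ε * n / 4 < (e₀ : ℝ) + 1) :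
    (m : ℝ) * γ / (e₀ + 1) ≤ δ / 3 := by
  have he₀pos : (0 : ℝ) < (e₀ : ℝ) + 1 := by positivity
  rw [div_le_iff₀ he₀pos]
  have h1 : (m : ℝ) * γ ≤ (2 * C * n) * γ := mul_le_mul_of_nonneg_right hm2 hγ0
  have h2 : (2 * C * n) * γ ≤ (2 * C * n) * (δ * ε / (24 * C)) :=
    mul_le_mul_of_nonneg_left hγ2 (by positivity)
  have h3 : (2 * C * n) * (δ * ε / (24 * C)) = δ / 3 * (ε * n / 4) := by
    field_simp
    ring
  have h4 : δ / 3 * (ε * n / 4) ≤ δ / 3 * ((e₀ : ℝ) + 1) :=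
    mul_le_mul_of_nonneg_left he₀lt.le (by positivity)
  linarith

lemma L_le_of_pow {k n L : ℕ} {θ θ₂ : ℝ} (hk : 2 ≤ k) (hθ₂0 : 0 < θ₂) (hnR : (0 : ℝ) < n)
    (hn3 : θ / θ₂ ^ k ≤ n) (hLk : (L : ℝ) ^ k ≤ θ * (n : ℝ) ^ (k - 1)) : (L : ℝ) ≤ θ₂ * n := by
  by_contra hcon
  push Not at hcon
  have h1 : (θ₂ * n) ^ k < (L : ℝ) ^ k :=
    pow_lt_pow_left₀ hcon (by positivity) (by omega)
  have hk1 : k - 1 + 1 = k := by omega
  have h2 : (θ₂ * n) ^ k = θ₂ ^ k * n * (n : ℝ) ^ (k - 1) := by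
    rw [mul_pow]
    nth_rewrite 2 [← hk1]
    rw [pow_succ]
    ring
  have h3 : θ ≤ θ₂ ^ k * n := by
    have := (div_le_iff₀ (by positivity : (0 : ℝ) < θ₂ ^ k)).1 hn3
    linarith
  have h4 : θ * (n : ℝ) ^ (k - 1) ≤ θ₂ ^ k * n * (n : ℝ) ^ (k - 1) :=
    mul_le_mul_of_nonneg_right h3 (by positivity)
  linarith

lemma slow_floor {m e₀ n L : ℕ} {c ε C θ₂ : ℝ} (hc0 : 0 ≤ c) (hcC : c ≤ C) (hC : 0 < C) (hε : 0 < ε)
    (hnR : (0 : ℝ) < n) (hθ₂1 : θ₂ ≤ 1) (hθ₂2 : θ₂ ≤ ε / (4 * C)) (hLle : (L : ℝ) ≤ θ₂ * n)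
    (hmle : (m : ℝ) ≤ c * ((n : ℝ) + L)) (he₀le : (e₀ : ℝ) ≤ ε * n / 4) :
    (m : ℝ) ≤ 2 * C * n ∧ m + e₀ ≤ ⌊(c + ε) * n⌋₊ := by
  have hLn : (L : ℝ) ≤ n := by nlinarith
  have hL0 : (0 : ℝ) ≤ L := by positivity
  have hcL : c * L ≤ ε * n / 4 := by
    have hθ₂0 : 0 ≤ θ₂ * n := hL0.trans hLle
    have h1 : c * L ≤ C * (θ₂ * n) := mul_le_mul hcC hLle hL0 hC.le
    have h2 : C * (θ₂ * n) ≤ C * ((ε / (4 * C)) * n) :=
      mul_le_mul_of_nonneg_left (mul_le_mul_of_nonneg_right hθ₂2 hnR.le) hC.le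
    have h3 : C * ((ε / (4 * C)) * n) = ε * n / 4 := by
      field_simp
    linarith
  constructor
  · have h1 : c * ((n : ℝ) + L) ≤ C * ((n : ℝ) + n) :=
      mul_le_mul hcC (by linarith) (by positivity) hC.le
    linarith
  · apply Nat.le_floor
    push_cast
    have h1 : c * ((n : ℝ) + L) = c * n + c * L := by ring
    have h2 : (c + ε) * n = c * n + ε * n := by ring
    have h3 : 0 < ε * n := by positivity
    linarith

theorem slowvar_lower {k : ℕ} (hk : 2 ≤ k) {C ε δ : ℝ} (hC : 0 < C) (hε : 0 < ε) (hδ : 0 < δ) :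
    ∃ θ : ℝ, 0 < θ ∧ ∃ N : ℕ, ∀ c : ℝ, 0 ≤ c → c ≤ C → ∀ n L : ℕ, N ≤ n →
      (L : ℝ) ^ k ≤ θ * (n : ℝ) ^ (k - 1) →
      (1 - δ) * satProb k n ⌊(c + ε) * n⌋₊ ≤ satProb k (n + L) ⌊c * ((n + L : ℕ) : ℝ)⌋₊ := by
  by_cases hδ1 : 1 ≤ δ
  · refine ⟨1, by norm_num, 0, ?_⟩
    intro c _ _ n L _ _
    have h1 : (1 - δ) * satProb k n ⌊(c + ε) * n⌋₊ ≤ 0 :=
      mul_nonpos_of_nonpos_of_nonneg (by linarith) (satProb_nonneg _ _ _)
    exact h1.trans (satProb_nonneg _ _ _)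
  push Not at hδ1
  obtain ⟨γ, hγ0, hγ1, hγ2⟩ : ∃ γ : ℝ, 0 < γ ∧ γ ≤ 1 ∧ γ ≤ δ * ε / (24 * C) :=
    ⟨min 1 (δ * ε / (24 * C)), lt_min (by norm_num) (by positivity), min_le_left _ _,
      min_le_right _ _⟩
  obtain ⟨t₀, ht₀, htR⟩ := exists_t0 k hγ0
  obtain ⟨A, hA⟩ : ∃ A : ℝ, A = 1 + 1 / t₀ := ⟨_, rfl⟩
  have hA0 : 0 ≤ A := by rw [hA]; positivity
  obtain ⟨θ, hθdef⟩ : ∃ θ : ℝ, θ = δ / (6 * C * A ^ k + 1) := ⟨_, rfl⟩
  have hθ0 : 0 < θ := by rw [hθdef]; positivity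
  obtain ⟨θ₂, hθ₂0, hθ₂1, hθ₂2⟩ : ∃ θ₂ : ℝ, 0 < θ₂ ∧ θ₂ ≤ 1 ∧ θ₂ ≤ ε / (4 * C) :=
    ⟨min 1 (ε / (4 * C)), lt_min (by norm_num) (by positivity), min_le_left _ _, min_le_right _ _⟩
  refine ⟨θ, hθ0, max k (max (⌈6 * C * A ^ k * ((k : ℝ) + 1) ^ k / δ⌉₊ + 1)
    (max (⌈δ / (6 * C)⌉₊ + 1) (⌈θ / θ₂ ^ k⌉₊ + 1))), ?_⟩
  intro c hc0 hcC n L hn hLk
  have hkn : k ≤ n := (le_max_left _ _).trans hn
  have hB := (le_max_right _ _).trans hn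
  have hn1 : 6 * C * A ^ k * ((k : ℝ) + 1) ^ k / δ + 1 ≤ n := by
    have h1 : ⌈6 * C * A ^ k * ((k : ℝ) + 1) ^ k / δ⌉₊ + 1 ≤ n := (le_max_left _ _).trans hB
    have h2 := Nat.le_ceil (6 * C * A ^ k * ((k : ℝ) + 1) ^ k / δ)
    have h3 : ((⌈6 * C * A ^ k * ((k : ℝ) + 1) ^ k / δ⌉₊ + 1 : ℕ) : ℝ) ≤ n := by exact_mod_cast h1
    push_cast at h3
    linarith
  have hB2 := (le_max_right _ _).trans hB
  have hn2 : δ / (6 * C) ≤ n := ceil_bound ((le_max_left _ _).trans hB2)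
  have hn3 : θ / θ₂ ^ k ≤ n := ceil_bound ((le_max_right _ _).trans hB2)
  have hnpos : 0 < n := by omega
  have hnR : (0 : ℝ) < n := by exact_mod_cast hnpos
  have hLle : (L : ℝ) ≤ θ₂ * n := L_le_of_pow hk hθ₂0 hnR hn3 hLk
  obtain ⟨f₀, hf₀def⟩ : ∃ f₀ : ℕ, f₀ = k + ⌈((L : ℝ) + k) / t₀⌉₊ := ⟨_, rfl⟩
  have hf₀k : k ≤ f₀ := by omega
  obtain ⟨hbase, hfA⟩ := ceil_param (L := L) ht₀ (by omega : 1 ≤ k) hf₀def
  have hfA' : (f₀ : ℝ) + L ≤ A * ((L : ℝ) + (k + 1)) := by rw [hA]; exact hfA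
  have hD : (0 : ℝ) < (f₀ : ℝ) + 1 - k := by
    have : (k : ℝ) ≤ f₀ := by exact_mod_cast hf₀k
    linarith
  have hR : (((f₀ : ℝ) + L) / ((f₀ : ℝ) + 1 - k)) ^ k - 1 ≤ 3 / 4 * γ := by
    have h1 : (((f₀ : ℝ) + L) / ((f₀ : ℝ) + 1 - k)) ^ k ≤ (1 + t₀) ^ k :=
      pow_le_pow_left₀ (by positivity) hbase k
    linarith
  have hnLR : ((n + L : ℕ) : ℝ) = (n : ℝ) + L := by push_cast; ring
  have hmle : ((⌊c * ((n + L : ℕ) : ℝ)⌋₊ : ℕ) : ℝ) ≤ c * ((n : ℝ) + L) := by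
    rw [← hnLR]
    exact Nat.floor_le (by positivity)
  have he₀le : ((⌊ε * (n : ℝ) / 4⌋₊ : ℕ) : ℝ) ≤ ε * n / 4 := Nat.floor_le (by positivity)
  have he₀lt : ε * (n : ℝ) / 4 < ((⌊ε * (n : ℝ) / 4⌋₊ : ℕ) : ℝ) + 1 := Nat.lt_floor_add_one _
  generalize ⌊c * ((n + L : ℕ) : ℝ)⌋₊ = m at *
  generalize ⌊ε * (n : ℝ) / 4⌋₊ = e₀ at *
  obtain ⟨hm2, hfl⟩ := slow_floor hc0 hcC hC hε hnR hθ₂1 hθ₂2 hLle hmle he₀le
  obtain ⟨hη1, hmη⟩ := eta_extra (m := m) hk hnpos hA0 hC hδ hfA' hm2 hθdef hLk hn1 hn2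
  have hγterm := gamma_bound_extra (m := m) (e₀ := e₀) hC hδ hε hnR hγ0.le hγ2 hm2 he₀lt
  exact slow_core hk hkn hf₀k hγ0.le hγ1 hR hδ hδ1 hη1 hmη hγterm hfl

end Lower

end Vale.Agent.Lib.P170
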