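import Mathlib
import Vale.Agent.Lib.P170.SlowVar

/-!
Adding variables does not help much: the restriction inequality.
-/

set_option linter.unusedSectionVars false

open Finset

namespace Vale.Agent.Lib.P170

section Upper

variable {n L k : ℕ}

/-- Thinning weight: the probability that a uniform clause on `n + L` variables uses only the first `n`. -/
noncomputable def qW (n L k : ℕ) : ℝ := (n.choose k : ℝ) / ((n + L).choose k : ℝ)

lemma qW_nonneg : 0 ≤ qW n L k := by unfold qW; positivity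

lemma qW_le_one (hk : k ≤ n) : qW n L k ≤ 1 := by
  unfold qW
  have h1 : (0 : ℝ) < ((n + L).choose k : ℝ) := by
    exact_mod_cast Nat.choose_pos (by omega)
  rw [div_le_one h1]
  exact_mod_cast Nat.choose_le_choose k (by omega)

lemma card_frozen_castAdd_le (S : Finset (Fin (n + L) → Bool)) :
    (frozen (Fin.castAdd L : Fin n → Fin (n + L)) S).card ≤
      (frozen (id : Fin (n + L) → Fin (n + L)) S).card := by
  classical
  apply Finset.card_le_card_of_injOn (fun l => (Fin.castAdd L l.1, l.2))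
  · intro l hl
    have h := (mem_frozen _ _ _).1 (Finset.mem_coe.1 hl)
    exact Finset.mem_coe.2 ((mem_frozen _ _ _).2 h)
  · intro l _ l' _ h
    have h' : (Fin.castAdd L l.1, l.2) = (Fin.castAdd L l'.1, l'.2) := h
    have h1 : Fin.castAdd L l.1 = Fin.castAdd L l'.1 := (Prod.mk.inj h').1
    have h2 : l.2 = l'.2 := (Prod.mk.inj h').2
    exact Prod.ext (Fin.castAdd_injective _ _ h1) h2

/-- The operator of a lazy clause on the first `n` variables. -/
noncomputable def lazyOp (n L k : ℕ) : Module.End ℝ (Finset (Fin (n + L) → Bool) → ℝ) :=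
  (1 - qW n L k) • (1 : Module.End ℝ _) +
    qW n L k • avgOp (satOf (k := k) (Fin.castAdd L : Fin n → Fin (n + L)))

lemma lazy_isLocPos (hk : k ≤ n) : IsLocPos (lazyOp n L k) := by
  unfold lazyOp
  apply IsLocPos.add
  · apply IsLocPos.one.smul
    linarith [qW_le_one (n := n) (L := L) hk]
  · exact (avgOp_isLocPos _).smul qW_nonneg

lemma lazy_comm : Commute (lazyOp n L k) (avgOp (satOf (k := k) (id : Fin (n + L) → Fin (n + L)))) := by
  unfold lazyOp
  apply Commute.add_left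
  · exact (Commute.one_left _).smul_left _
  · exact (avgOp_comm _ _).smul_left _

lemma lazy_step (hk : k ≤ n) (S : Finset (Fin (n + L) → Bool)) :
    avgOp (satOf (k := k) (id : Fin (n + L) → Fin (n + L))) phi S ≤ lazyOp n L k phi S := by
  have hexp : lazyOp n L k phi S = (1 - qW n L k) * phi S +
      qW n L k * avgOp (satOf (k := k) (Fin.castAdd L : Fin n → Fin (n + L))) phi S := rfl
  rw [hexp]
  by_cases hS : S.Nonempty
  · rw [avg_phi_nonempty (k := k) _ (by simp; omega) hS,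
      avg_phi_nonempty (k := k) _ (by simpa using hk) hS, phi_nonempty hS]
    simp only [Fintype.card_fin]
    have h1 : qW n L k * kappa k n (frozen (Fin.castAdd L : Fin n → Fin (n + L)) S).card =
        kappa k (n + L) (frozen (Fin.castAdd L : Fin n → Fin (n + L)) S).card := by
      unfold qW kappa
      have hc : (n.choose k : ℝ) ≠ 0 := by exact_mod_cast (Nat.choose_pos hk).ne'
      have hc' : ((n + L).choose k : ℝ) ≠ 0 := by
        exact_mod_cast (Nat.choose_pos (by omega : k ≤ n + L)).ne'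
      field_simp
    have h2 := kappa_mono k (n + L) (card_frozen_castAdd_le S)
    nlinarith
  · rw [Finset.not_nonempty_iff_eq_empty] at hS
    subst hS
    rw [avg_phi_empty, avg_phi_empty, phi_empty]
    simp

lemma lazy_pow_univ (m : ℕ) :
    (lazyOp n L k ^ m) phi univ =
      ∑ j ∈ range (m + 1), binW m (qW n L k) j * satProb k n j := by
  set q := qW n L k with hq
  set T := avgOp (satOf (k := k) (Fin.castAdd L : Fin n → Fin (n + L))) with hT
  have hc : Commute (q • T) ((1 - q) • (1 : Module.End ℝ (Finset (Fin (n + L) → Bool) → ℝ))) :=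
    ((Commute.one_right T).smul_right _).smul_left _
  have hd : lazyOp n L k = q • T + (1 - q) • (1 : Module.End ℝ _) := by
    unfold lazyOp
    exact add_comm _ _
  rw [hd, hc.add_pow, LinearMap.sum_apply, Finset.sum_apply]
  apply Finset.sum_congr rfl
  intro j _
  have h3 : (q • T) ^ j * ((1 - q) • (1 : Module.End ℝ _)) ^ (m - j) *
      (m.choose j : Module.End ℝ (Finset (Fin (n + L) → Bool) → ℝ)) = (binW m q j) • T ^ j := by
    have hcast : (m.choose j : Module.End ℝ (Finset (Fin (n + L) → Bool) → ℝ)) =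
        ((m.choose j : ℝ) • (1 : Module.End ℝ _)) := by
      simp [Nat.cast_smul_eq_nsmul]
    rw [smul_pow, smul_pow, one_pow, hcast, binW]
    simp only [mul_smul_comm, mul_one, smul_smul]
    congr 1
    ring
  rw [h3]
  simp only [LinearMap.smul_apply, Pi.smul_apply, smul_eq_mul]
  rw [hT, avg_pow_eq (k := k) _ (Fin.castAdd_injective _ _)]

/-- The finite upper bound. -/
theorem upper_finite (hk : k ≤ n) (m j₀ : ℕ) {y : ℝ} (hy : y = m * qW n L k - j₀) (hy0 : 0 < y) :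
    satProb k (n + L) m ≤ satProb k n j₀ + m * qW n L k * (1 - qW n L k) / y ^ 2 := by
  have h1 := compare_iter (a := 1) (L_F := lazyOp n L k)
    (L := avgOp (satOf (k := k) (id : Fin (n + L) → Fin (n + L))))
    lazy_comm (lazy_isLocPos hk) (avgOp_isLocPos _) (Φ := phi) (by norm_num)
    (fun S => by simpa using lazy_step hk S) m univ
  rw [one_pow, one_mul, avg_pow_eq (k := k) _ Function.injective_id, lazy_pow_univ] at h1
  refine h1.trans ?_
  set q := qW n L k with hq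
  have hq0 : 0 ≤ q := qW_nonneg
  have hq1 : q ≤ 1 := qW_le_one hk
  set P₀ := satProb k n j₀ with hP₀
  have hP₀0 : 0 ≤ P₀ := satProb_nonneg _ _ _
  have hpt : ∀ j ∈ range (m + 1), binW m q j * satProb k n j ≤
      binW m q j * (P₀ + ((j : ℝ) - m * q) ^ 2 / y ^ 2) := by
    intro j _
    apply mul_le_mul_of_nonneg_left _ (binW_nonneg m hq0 hq1 j)
    by_cases hj : j₀ ≤ j
    · have h2 : satProb k n j ≤ P₀ := satProb_anti hk hj
      have h3 : 0 ≤ ((j : ℝ) - m * q) ^ 2 / y ^ 2 := by positivity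
      linarith
    · have h2 : (j : ℝ) + 1 ≤ j₀ := by
        have : j + 1 ≤ j₀ := by omega
        exact_mod_cast this
      have h3 : y ≤ m * q - j := by rw [hy]; linarith
      have h4 : 1 ≤ ((j : ℝ) - m * q) ^ 2 / y ^ 2 := by
        rw [le_div_iff₀ (by positivity)]
        nlinarith
      have h5 := satProb_le_one hk j
      linarith
  have hsum := Finset.sum_le_sum hpt
  refine hsum.trans (le_of_eq ?_)
  have h9 : ∀ j ∈ range (m + 1), binW m q j * (P₀ + ((j : ℝ) - m * q) ^ 2 / y ^ 2) =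
      binW m q j * P₀ + (((j : ℝ) - m * q) ^ 2 * binW m q j) / y ^ 2 := by
    intro j _
    field_simp
  rw [Finset.sum_congr rfl h9, Finset.sum_add_distrib, ← Finset.sum_mul, ← Finset.sum_div,
    binW_sum, binW_var]
  ring

/-- Bound for `1 - q`. -/
lemma one_sub_qW_le (hk : 1 ≤ k) (hkn : k ≤ n) :
    1 - qW n L k ≤ k * ((L : ℝ) + k) / n := by
  have hn : 0 < n := by omega
  have hnR : (0 : ℝ) < n := by exact_mod_cast hn
  have hnL : 0 < n + L := by omega
  have h1 := le_choose_ratio (f := n) (n := n + L) (k := k) (by omega) hnL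
  have hg : ((n + 1 - k : ℕ) : ℝ) = (n : ℝ) + 1 - k := by
    rw [Nat.cast_sub (by omega)]; push_cast; ring
  rw [hg] at h1
  have hnLR : ((n + L : ℕ) : ℝ) = (n : ℝ) + L := by push_cast; ring
  rw [hnLR] at h1
  have hden : (0 : ℝ) < (n : ℝ) + L := by positivity
  have hkR : (1 : ℝ) ≤ k := by exact_mod_cast hk
  have hknR : (k : ℝ) ≤ n := by exact_mod_cast hkn
  have hL0 : (0 : ℝ) ≤ L := by positivity
  have h2 : ((n : ℝ) + 1 - k) / ((n : ℝ) + L) = 1 + (-(((L : ℝ) + k - 1) / ((n : ℝ) + L))) := by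
    field_simp
    ring
  have hx : -2 ≤ -(((L : ℝ) + k - 1) / ((n : ℝ) + L)) := by
    have : ((L : ℝ) + k - 1) / ((n : ℝ) + L) ≤ 1 := by
      rw [div_le_one hden]; linarith
    linarith
  have h3 := one_add_mul_le_pow hx k
  rw [← h2] at h3
  have h4 : 1 + (k : ℝ) * (-(((L : ℝ) + k - 1) / ((n : ℝ) + L))) ≤ qW n L k := by
    unfold qW
    linarith
  have h5 : ((L : ℝ) + k - 1) / ((n : ℝ) + L) ≤ ((L : ℝ) + k) / n := by
    rw [div_le_div_iff₀ hden hnR]
    nlinarith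
  have h6 : (k : ℝ) * (((L : ℝ) + k - 1) / ((n : ℝ) + L)) ≤ (k : ℝ) * (((L : ℝ) + k) / n) :=
    mul_le_mul_of_nonneg_left h5 (by positivity)
  have h7 : (k : ℝ) * (((L : ℝ) + k) / n) = k * ((L : ℝ) + k) / n := by ring
  nlinarith

/-- Numerical lower bound for `y`. -/
lemma upper_numbers {m j₀ : ℕ} {c ε C θ : ℝ} (hk : 1 ≤ k) (hkn : k ≤ n) (hcC : c ≤ C) (hC : 0 < C)
    (hc0 : 0 ≤ c) (hLθ : (L : ℝ) ≤ θ * n) (hθ1 : θ ≤ 1)
    (hθ2 : 2 * C * k * θ ≤ ε / 4)
    (hm1 : c * ((n : ℝ) + L) < (m : ℝ) + 1) (hm2 : (m : ℝ) ≤ c * ((n : ℝ) + L))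
    (hj₀ : (j₀ : ℝ) ≤ (c - ε) * n)
    (hN : 1 + 2 * C * k ^ 2 ≤ ε / 4 * n) :
    ε / 2 * n ≤ m * qW n L k - j₀ := by
  have hn : 0 < n := by omega
  have hnR : (0 : ℝ) < n := by exact_mod_cast hn
  have hL0 : (0 : ℝ) ≤ L := by positivity
  have hLn : (L : ℝ) ≤ n := by nlinarith
  have hk0 : (0 : ℝ) ≤ k := by positivity
  have hm0 : (0 : ℝ) ≤ m := by positivity
  have hmle : (m : ℝ) ≤ 2 * C * n := by
    have h1 : c * ((n : ℝ) + L) ≤ C * ((n : ℝ) + n) :=
      mul_le_mul hcC (by linarith) (by positivity) hC.le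
    linarith
  have hq := one_sub_qW_le (n := n) (L := L) hk hkn
  have hq0 : 0 ≤ 1 - qW n L k ∨ 1 - qW n L k < 0 := le_or_gt _ _
  have h1 : (m : ℝ) * (1 - qW n L k) ≤ 2 * C * k * ((L : ℝ) + k) := by
    have h2 : (m : ℝ) * (1 - qW n L k) ≤ m * (k * ((L : ℝ) + k) / n) :=
      mul_le_mul_of_nonneg_left hq hm0
    have h3 : (m : ℝ) * (k * ((L : ℝ) + k) / n) ≤ (2 * C * n) * (k * ((L : ℝ) + k) / n) :=
      mul_le_mul_of_nonneg_right hmle (by positivity)
    have h4 : (2 * C * n) * (k * ((L : ℝ) + k) / n) = 2 * C * k * ((L : ℝ) + k) := by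
      field_simp
    linarith
  have h2 : 2 * C * k * (L : ℝ) ≤ ε / 4 * n := by
    have h3 : 2 * C * k * (L : ℝ) ≤ 2 * C * k * (θ * n) :=
      mul_le_mul_of_nonneg_left hLθ (by positivity)
    have h4 : 2 * C * k * (θ * n) = (2 * C * k * θ) * n := by ring
    have h5 : (2 * C * k * θ) * n ≤ (ε / 4) * n := mul_le_mul_of_nonneg_right hθ2 hnR.le
    linarith
  have h3 : (c - ε) * n = c * n - ε * n := by ring
  have h4 : c * ((n : ℝ) + L) = c * n + c * L := by ring
  have h5 : 0 ≤ c * L := by positivity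
  have h6 : 2 * C * k * ((L : ℝ) + k) = 2 * C * k * (L : ℝ) + 2 * C * k ^ 2 := by ring
  have h7 : (m : ℝ) * qW n L k = m - m * (1 - qW n L k) := by ring
  rw [h7]
  have h8 : ε / 2 * n = ε * n / 2 := by ring
  have h9 : ε / 4 * n = ε * n / 4 := by ring
  rw [h9] at h2 hN
  rw [h8]
  linarith

theorem slowvar_upper (hk : 2 ≤ k) {C ε δ : ℝ} (hC : 0 < C) (hε : 0 < ε) (hδ : 0 < δ) :
    ∃ θ : ℝ, 0 < θ ∧ ∃ N : ℕ, ∀ c : ℝ, 0 ≤ c → c ≤ C → ∀ n L : ℕ, N ≤ n → (L : ℝ) ≤ θ * n →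
      satProb k (n + L) ⌊c * ((n + L : ℕ) : ℝ)⌋₊ ≤ satProb k n ⌊(c - ε) * n⌋₊ + δ := by
  obtain ⟨θ, hθ0, hθ1, hθ2⟩ : ∃ θ : ℝ, 0 < θ ∧ θ ≤ 1 ∧ θ ≤ ε / (8 * C * k) := by
    have hk0 : (0 : ℝ) < k := by
      have : 0 < k := by omega
      exact_mod_cast this
    exact ⟨min 1 (ε / (8 * C * k)), lt_min (by norm_num) (by positivity), min_le_left _ _,
      min_le_right _ _⟩
  have hkR : (0 : ℝ) < k := by
    have : 0 < k := by omega
    exact_mod_cast this
  refine ⟨θ, hθ0, max k (max (⌈(1 + 2 * C * k ^ 2) / (ε / 4)⌉₊ + 1) (⌈8 * C / (ε ^ 2 * δ)⌉₊ + 1)), ?_⟩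
  intro c hc0 hcC n L hn hLθ
  have hkn : k ≤ n := (le_max_left _ _).trans hn
  have hB := (le_max_right _ _).trans hn
  have hn1 : (1 + 2 * C * k ^ 2) / (ε / 4) ≤ n := ceil_bound ((le_max_left _ _).trans hB)
  have hn2 : 8 * C / (ε ^ 2 * δ) ≤ n := ceil_bound ((le_max_right _ _).trans hB)
  have hnpos : 0 < n := by omega
  have hnR : (0 : ℝ) < n := by exact_mod_cast hnpos
  by_cases hcε : c ≤ ε
  · have h1 : (c - ε) * n ≤ 0 := mul_nonpos_of_nonpos_of_nonneg (by linarith) hnR.le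
    rw [Nat.floor_of_nonpos h1, satProb_zero hkn]
    have h2 := satProb_le_one (k := k) (n := n + L) (by omega) ⌊c * ((n + L : ℕ) : ℝ)⌋₊
    linarith
  push Not at hcε
  have hnLR : ((n + L : ℕ) : ℝ) = (n : ℝ) + L := by push_cast; ring
  have hm1 : c * ((n : ℝ) + L) < ((⌊c * ((n + L : ℕ) : ℝ)⌋₊ : ℕ) : ℝ) + 1 := by
    rw [← hnLR]; exact Nat.lt_floor_add_one _
  have hm2 : ((⌊c * ((n + L : ℕ) : ℝ)⌋₊ : ℕ) : ℝ) ≤ c * ((n : ℝ) + L) := by
    rw [← hnLR]; exact Nat.floor_le (by positivity)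
  have hj₀ : ((⌊(c - ε) * n⌋₊ : ℕ) : ℝ) ≤ (c - ε) * n :=
    Nat.floor_le (mul_nonneg (by linarith) hnR.le)
  generalize ⌊c * ((n + L : ℕ) : ℝ)⌋₊ = m at *
  generalize ⌊(c - ε) * n⌋₊ = j₀ at *
  have hθ2' : 2 * C * k * θ ≤ ε / 4 := by
    have h1 : 2 * C * k * θ ≤ 2 * C * k * (ε / (8 * C * k)) :=
      mul_le_mul_of_nonneg_left hθ2 (by positivity)
    have h2 : 2 * C * k * (ε / (8 * C * k)) = ε / 4 := by
      field_simp
      ring
    linarith
  have hN : 1 + 2 * C * k ^ 2 ≤ ε / 4 * n := by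
    have := (div_le_iff₀ (by positivity : (0 : ℝ) < ε / 4)).1 hn1
    linarith
  have hylow := upper_numbers (L := L) (by omega : 1 ≤ k) hkn hcC hC hc0 hLθ hθ1 hθ2' hm1 hm2 hj₀ hN
  have hy0 : 0 < (m : ℝ) * qW n L k - j₀ := lt_of_lt_of_le (by positivity) hylow
  have hmain := upper_finite (L := L) hkn m j₀ rfl hy0
  refine hmain.trans ?_
  refine add_le_add (le_refl _) ?_
  -- the tail term
  have hq0 : 0 ≤ qW n L k := qW_nonneg
  have hq1 : qW n L k ≤ 1 := qW_le_one hkn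
  have hL0 : (0 : ℝ) ≤ L := by positivity
  have hLn : (L : ℝ) ≤ n := by nlinarith
  have hmle : (m : ℝ) ≤ 2 * C * n := by
    have h1 : c * ((n : ℝ) + L) ≤ C * ((n : ℝ) + n) :=
      mul_le_mul hcC (by linarith) (by positivity) hC.le
    linarith
  have hq2 : (m : ℝ) * qW n L k * (1 - qW n L k) ≤ 2 * C * n := by
    have h1 : (m : ℝ) * qW n L k ≤ m * 1 := mul_le_mul_of_nonneg_left hq1 (by positivity)
    have h2 : (m : ℝ) * qW n L k * (1 - qW n L k) ≤ (m : ℝ) * qW n L k * 1 :=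
      mul_le_mul_of_nonneg_left (by linarith) (by positivity)
    linarith
  have hsq : (ε / 2 * n) ^ 2 ≤ ((m : ℝ) * qW n L k - j₀) ^ 2 :=
    pow_le_pow_left₀ (by positivity) hylow 2
  rw [div_le_iff₀ (by positivity)]
  have h3 : 8 * C ≤ n * (ε ^ 2 * δ) := by
    have := (div_le_iff₀ (by positivity : (0 : ℝ) < ε ^ 2 * δ)).1 hn2
    linarith
  have h4 : 2 * C * n ≤ δ * (ε / 2 * n) ^ 2 := by
    have h5 : δ * (ε / 2 * n) ^ 2 = (n * (ε ^ 2 * δ)) * n / 4 := by ring
    rw [h5]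
    have h6 : 8 * C * n ≤ (n * (ε ^ 2 * δ)) * n := mul_le_mul_of_nonneg_right h3 hnR.le
    linarith
  have h7 : δ * (ε / 2 * n) ^ 2 ≤ δ * ((m : ℝ) * qW n L k - j₀) ^ 2 :=
    mul_le_mul_of_nonneg_left hsq hδ.le
  linarith

end Upper

end Vale.Agent.Lib.P170
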