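import Mathlib
import Vale.Agent.Lib.P170.SlowVarUpper

/-!
Consequences for threshold sequences.
-/

set_option linter.unusedSectionVars false

open Finset

namespace Vale.Agent.Lib.P170

section Main

variable {k : ℕ} {r : ℕ → ℝ}

/-- `r(n + L) ≤ r(n) + ε` for `L ≤ θ n`. -/
theorem threshold_upper (hk : 2 ≤ k) (hr : IsThresholdSeq k r) {ε : ℝ} (hε : 0 < ε) :
    ∃ θ : ℝ, 0 < θ ∧ ∃ N : ℕ, ∀ n L : ℕ, N ≤ n → (L : ℝ) ≤ θ * n → r (n + L) ≤ r n + ε := by
  set ε' : ℝ := ε / 3 with hε'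
  have hε'0 : 0 < ε' := by positivity
  obtain ⟨N₀, hN₀⟩ := threshold_bounded hr
  obtain ⟨N₄, hN₄⟩ := threshold_lower hr hε'0
  have hC : (0 : ℝ) < 2 ^ (k + 1) + 2 := by positivity
  obtain ⟨θ, hθ, N₁, hN₁⟩ := slowvar_upper hk hC hε'0 (by norm_num : (0 : ℝ) < 1 / 10)
  have h1 := (hr ε' hε'0).1
  have h2 := (hr ε' hε'0).2
  obtain ⟨N₂, hN₂⟩ := Filter.eventually_atTop.1
    (h1.eventually (lt_mem_nhds (by norm_num : (9 / 10 : ℝ) < 1)))
  obtain ⟨N₃, hN₃⟩ := Filter.eventually_atTop.1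
    (h2.eventually (gt_mem_nhds (by norm_num : (0 : ℝ) < 1 / 10)))
  refine ⟨θ, hθ, max N₀ (max N₁ (max N₂ (max N₃ (max N₄ k)))), ?_⟩
  intro n L hn hL
  have h0 : N₀ ≤ n := (le_max_left _ _).trans hn
  have hB := (le_max_right _ _).trans hn
  have h1' : N₁ ≤ n := (le_max_left _ _).trans hB
  have hB2 := (le_max_right _ _).trans hB
  have h2' : N₂ ≤ n := (le_max_left _ _).trans hB2
  have hB3 := (le_max_right _ _).trans hB2
  have h3' : N₃ ≤ n := (le_max_left _ _).trans hB3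
  have hB4 := (le_max_right _ _).trans hB3
  have h4' : N₄ ≤ n := (le_max_left _ _).trans hB4
  have hkn : k ≤ n := (le_max_right _ _).trans hB4
  by_contra hcon
  push Not at hcon
  have h3e : ε = 3 * ε' := by rw [hε']; ring
  set c : ℝ := r (n + L) - ε' with hc
  have hrn := hN₄ n h4'
  have hc0 : 0 ≤ c := by rw [hc]; linarith
  have hcC : c ≤ 2 ^ (k + 1) + 2 := by
    have := hN₀ (n + L) (by omega)
    rw [hc]; linarith
  have hup := hN₁ c hc0 hcC n L h1' hL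
  have hP₁ : (9 / 10 : ℝ) < satProb k (n + L) ⌊c * ((n + L : ℕ) : ℝ)⌋₊ :=
    hN₂ (n + L) (by omega)
  have hP₂ : satProb k n ⌊(c - ε') * n⌋₊ < 1 / 10 := by
    refine lt_of_le_of_lt (satProb_anti hkn ?_) (hN₃ n h3')
    apply Nat.floor_le_floor
    apply mul_le_mul_of_nonneg_right _ (by positivity)
    rw [hc]; linarith
  linarith

/-- `r(n + L) ≥ r(n) - ε` when `L^k ≤ θ n^(k-1)`. -/
theorem threshold_lower_slow (hk : 2 ≤ k) (hr : IsThresholdSeq k r) {ε : ℝ} (hε : 0 < ε) :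
    ∃ θ : ℝ, 0 < θ ∧ ∃ N : ℕ, ∀ n L : ℕ, N ≤ n → (L : ℝ) ^ k ≤ θ * (n : ℝ) ^ (k - 1) →
      r n - ε ≤ r (n + L) := by
  set ε' : ℝ := ε / 3 with hε'
  have hε'0 : 0 < ε' := by positivity
  obtain ⟨N₀, hN₀⟩ := threshold_bounded hr
  obtain ⟨N₄, hN₄⟩ := threshold_lower hr hε'0
  have hC : (0 : ℝ) < 2 ^ (k + 1) + 2 := by positivity
  obtain ⟨θ, hθ, N₁, hN₁⟩ := slowvar_lower hk hC hε'0 (by norm_num : (0 : ℝ) < 1 / 10)
  have h1 := (hr ε' hε'0).1
  have h2 := (hr ε' hε'0).2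
  obtain ⟨N₂, hN₂⟩ := Filter.eventually_atTop.1
    (h1.eventually (lt_mem_nhds (by norm_num : (9 / 10 : ℝ) < 1)))
  obtain ⟨N₃, hN₃⟩ := Filter.eventually_atTop.1
    (h2.eventually (gt_mem_nhds (by norm_num : (0 : ℝ) < 1 / 10)))
  refine ⟨θ, hθ, max N₀ (max N₁ (max N₂ (max N₃ (max N₄ k)))), ?_⟩
  intro n L hn hL
  have h0 : N₀ ≤ n := (le_max_left _ _).trans hn
  have hB := (le_max_right _ _).trans hn
  have h1' : N₁ ≤ n := (le_max_left _ _).trans hB
  have hB2 := (le_max_right _ _).trans hB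
  have h2' : N₂ ≤ n := (le_max_left _ _).trans hB2
  have hB3 := (le_max_right _ _).trans hB2
  have h3' : N₃ ≤ n := (le_max_left _ _).trans hB3
  have hB4 := (le_max_right _ _).trans hB3
  have h4' : N₄ ≤ n := (le_max_left _ _).trans hB4
  have hkn : k ≤ n := (le_max_right _ _).trans hB4
  set c : ℝ := r n - 2 * ε' with hc
  have h3e : ε = 3 * ε' := by rw [hε']; ring
  by_cases hc0 : c ≤ 0
  · have := hN₄ (n + L) (by omega)
    rw [hc] at hc0
    linarith
  push Not at hc0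
  have hcC : c ≤ 2 ^ (k + 1) + 2 := by
    have := hN₀ n h0
    rw [hc]; linarith
  have hlow := hN₁ c hc0.le hcC n L h1' hL
  have hP₁ : (9 / 10 : ℝ) ≤ satProb k n ⌊(c + ε') * n⌋₊ := by
    have h3 := (hN₂ n h2').le
    refine h3.trans (satProb_anti hkn ?_)
    apply Nat.floor_le_floor
    apply mul_le_mul_of_nonneg_right _ (by positivity)
    rw [hc]; linarith
  by_contra hcon
  push Not at hcon
  have hP₂ : satProb k (n + L) ⌊c * ((n + L : ℕ) : ℝ)⌋₊ < 1 / 10 := by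
    refine lt_of_le_of_lt (satProb_anti (by omega) ?_) (hN₃ (n + L) (by omega))
    apply Nat.floor_le_floor
    apply mul_le_mul_of_nonneg_right _ (by positivity)
    rw [hc]; linarith
  have hP₃ : (1 - (1 / 10 : ℝ)) * (9 / 10) ≤ (1 - 1 / 10) * satProb k n ⌊(c + ε') * n⌋₊ :=
    mul_le_mul_of_nonneg_left hP₁ (by norm_num)
  norm_num at hP₃
  linarith

/-- Two-sided slow variation. -/
theorem threshold_slowvar (hk : 2 ≤ k) (hr : IsThresholdSeq k r) {ε : ℝ} (hε : 0 < ε) :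
    ∃ θ : ℝ, 0 < θ ∧ ∃ N : ℕ, ∀ n L : ℕ, N ≤ n → (L : ℝ) ^ k ≤ θ * (n : ℝ) ^ (k - 1) →
      |r (n + L) - r n| ≤ ε := by
  obtain ⟨θ, hθ, N₁, hN₁⟩ := threshold_lower_slow hk hr hε
  obtain ⟨θ₂, hθ₂, N₂, hN₂⟩ := threshold_upper hk hr hε
  refine ⟨θ, hθ, max N₁ (max N₂ (⌈θ / θ₂ ^ k⌉₊ + 1)), ?_⟩
  intro n L hn hL
  have h1 : N₁ ≤ n := (le_max_left _ _).trans hn
  have hB := (le_max_right _ _).trans hn
  have h2 : N₂ ≤ n := (le_max_left _ _).trans hB
  have h3 : θ / θ₂ ^ k ≤ n := ceil_bound ((le_max_right _ _).trans hB)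
  have hnpos : (0 : ℝ) < n := by
    have : 0 < n := by
      have := (le_max_right _ _).trans hB
      omega
    exact_mod_cast this
  have hLle : (L : ℝ) ≤ θ₂ * n := L_le_of_pow hk hθ₂ hnpos h3 hL
  rw [abs_le]
  constructor
  · linarith [hN₁ n L h1 hL]
  · linarith [hN₂ n L h2 hLle]

/-- Multiples: `r(j n) ≥ r(n) - ε`. -/
theorem threshold_multiples (hk : 2 ≤ k) (hr : IsThresholdSeq k r) {ε : ℝ} (hε : 0 < ε) (j : ℕ)
    (hj : 1 ≤ j) : ∃ N : ℕ, ∀ n, N ≤ n → r n - ε ≤ r (j * n) := by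
  obtain ⟨N, hN⟩ := threshold_additive hk hr (ε := ε / j) (by positivity)
  refine ⟨N, ?_⟩
  intro n hn
  have hjR : (0 : ℝ) < j := by exact_mod_cast hj
  have key : ∀ i : ℕ, 1 ≤ i → i ≤ j → r n - ((i : ℝ) - 1) * (ε / j) ≤ r (i * n) := by
    intro i hi
    induction i, hi using Nat.le_induction with
    | base =>
      intro _
      simp
    | succ i hi ih =>
      intro hij
      have h1 := ih (by omega)
      have h2 : N ≤ i * n := hn.trans (Nat.le_mul_of_pos_left n (by omega))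
      have h3 := hN (i * n) n h2 hn
      have h4 : (i + 1) * n = i * n + n := by ring
      rw [h4]
      have hε' : 0 < ε / j := by positivity
      have hi0 : (0 : ℝ) ≤ (i : ℝ) - 1 := by
        have : (1 : ℝ) ≤ i := by exact_mod_cast hi
        linarith
      have h5 : r n - (((i + 1 : ℕ) : ℝ) - 1) * (ε / j) ≤ min (r (i * n)) (r n) - ε / j := by
        push_cast
        apply le_sub_iff_add_le.2
        apply le_min
        · nlinarith
        · nlinarith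
      linarith
  have h1 := key j hj (le_refl _)
  have h2 : ((j : ℝ) - 1) * (ε / j) ≤ ε := by
    have h3 : (j : ℝ) * (ε / j) = ε := by field_simp
    have h4 : 0 < ε / j := by positivity
    nlinarith
  linarith

end Main

end Vale.Agent.Lib.P170
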